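import Vale.Agent.P137.Defs

/-!
P137, module WG.
-/

open MeasureTheory ENNReal Set

namespace P137

theorem wg_comp_smooth {n : ℕ} {φ : E n → E n} (h : ContDiff ℝ (⊤ : ℕ∞) φ) (i : Fin n) :
    ContDiff ℝ (⊤ : ℕ∞) (fun x => φ x i) :=
  (EuclideanSpace.proj (𝕜 := ℝ) i).contDiff.comp h

theorem wg_comp_supp {n : ℕ} {φ : E n → E n} (h : HasCompactSupport φ) (i : Fin n) :
    HasCompactSupport (fun x => φ x i) :=
  h.comp_left (g := fun y : E n => y i) rfl

theorem wg_fderiv {n : ℕ} {φ : E n → E n} (h : ContDiff ℝ (⊤ : ℕ∞) φ) (i : Fin n) (x : E n)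
    (v : E n) : fderiv ℝ (fun x => φ x i) x v = fderiv ℝ φ x v i := by
  have h1 : DifferentiableAt ℝ φ x := (h.differentiable (by simp)) x
  have h2 := ((EuclideanSpace.proj (𝕜 := ℝ) i).hasFDerivAt (x := φ x)).comp x h1.hasFDerivAt
  have h3 : (fun x => φ x i) = (EuclideanSpace.proj (𝕜 := ℝ) i) ∘ φ := rfl
  rw [h3, h2.fderiv]
  rfl

theorem wg_int1 {n : ℕ} {f : E n → ℝ} (hf : Integrable f) {ψ : E n → ℝ}
    (h : Continuous ψ) (h2 : HasCompactSupport ψ) : Integrable (fun x => f x * ψ x) := by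
  obtain ⟨C, hC⟩ := h2.exists_bound_of_continuous h
  exact hf.mul_bdd h.aestronglyMeasurable (Filter.Eventually.of_forall hC)

theorem wg_cont {n : ℕ} {ψ : E n → ℝ} (h : ContDiff ℝ (⊤ : ℕ∞) ψ) (v : E n) :
    Continuous (fun x => fderiv ℝ ψ x v) :=
  (h.continuous_fderiv (by simp)).clm_apply continuous_const

theorem wg_supp {n : ℕ} {ψ : E n → ℝ} (h : HasCompactSupport ψ) (v : E n) :
    HasCompactSupport (fun x => fderiv ℝ ψ x v) :=
  h.fderiv_apply (𝕜 := ℝ) v

theorem wg : StmtWG := by
  intro n f g hf hg hw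
  unfold variation
  refine iSup_le fun φ => iSup_le fun h1 => iSup_le fun h2 => iSup_le fun h3 => ?_
  have hgi : ∀ i, Integrable (fun x => g x i) := fun i =>
    (EuclideanSpace.proj (𝕜 := ℝ) i).integrable_comp hg
  have key : ∫ x, f x * divergence φ x ≤ ∫ x, ‖g x‖ := by
    have e1 : ∀ x, f x * divergence φ x =
        ∑ i, f x * fderiv ℝ (fun x => φ x i) x (EuclideanSpace.single i 1) := by
      intro x
      unfold divergence
      rw [Finset.mul_sum]
      exact Finset.sum_congr rfl fun i _ => by rw [wg_fderiv h1]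
    have e2 : ∫ x, f x * divergence φ x = ∫ x, - ∑ i, g x i * φ x i := by
      simp_rw [e1]
      rw [integral_finsetSum]
      · rw [integral_neg, integral_finsetSum]
        · rw [← Finset.sum_neg_distrib]
          exact Finset.sum_congr rfl fun i _ =>
            hw _ (wg_comp_smooth h1 i) (wg_comp_supp h2 i) i
        · intro i _
          exact wg_int1 (hgi i) (wg_comp_smooth h1 i).continuous (wg_comp_supp h2 i)
      · intro i _
        exact wg_int1 hf (wg_cont (wg_comp_smooth h1 i) _) (wg_supp (wg_comp_supp h2 i) _)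
    rw [e2]
    apply integral_mono
    · apply Integrable.neg
      apply integrable_finsetSum
      intro i _
      exact wg_int1 (hgi i) (wg_comp_smooth h1 i).continuous (wg_comp_supp h2 i)
    · exact hg.norm
    · intro x
      have h4 : ∑ i, g x i * φ x i = inner ℝ (g x) (φ x) := by
        rw [PiLp.inner_apply]
        exact Finset.sum_congr rfl fun i _ => by simp [mul_comm]
      have h5 := abs_real_inner_le_norm (g x) (φ x)
      have h6 : ‖g x‖ * ‖φ x‖ ≤ ‖g x‖ := by
        have := h3 x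
        nlinarith [norm_nonneg (g x)]
      show - ∑ i, g x i * φ x i ≤ ‖g x‖
      rw [h4]
      have := (abs_le.mp (h5.trans h6)).1
      linarith
  calc ENNReal.ofReal (∫ x, f x * divergence φ x) ≤ ENNReal.ofReal (∫ x, ‖g x‖) :=
        ENNReal.ofReal_le_ofReal key
    _ = ∫⁻ x, ‖g x‖ₑ := ofReal_integral_norm_eq_lintegral_enorm hg

end P137
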