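import Vale.Agent.P137.Defs

/-! P137, module BALL: averages of block-decreasing functions over balls are block-decreasing. -/

open MeasureTheory ENNReal Set

namespace P137

variable {n : ℕ}

/-- reflection of the `j`-th coordinate about `m` -/
noncomputable def rfl1 (j : Fin n) (m : ℝ) (z : E n) : E n :=
  WithLp.toLp 2 (fun i => if i = j then 2 * m - z i else z i)

theorem rfl1_apply (j : Fin n) (m : ℝ) (z : E n) (i : Fin n) :
    rfl1 j m z i = if i = j then 2 * m - z i else z i := rfl

theorem rfl1_mp (j : Fin n) (m : ℝ) : MeasurePreserving (rfl1 j m) (volume : Measure (E n)) volume := by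
  let L : E n ≃ₗᵢ[ℝ] E n := LinearIsometryEquiv.piLpCongrRight 2
    (fun i => if i = j then LinearIsometryEquiv.neg ℝ else LinearIsometryEquiv.refl ℝ ℝ)
  have h1 : MeasurePreserving (fun z : E n => L z) volume volume := L.measurePreserving
  have h2 : MeasurePreserving (fun z : E n => (EuclideanSpace.single j (2 * m)) + z) volume volume :=
    measurePreserving_add_left volume _
  have h3 : rfl1 j m = (fun z : E n => (EuclideanSpace.single j (2 * m)) + z) ∘ (fun z => L z) := by
    funext z
    ext i
    rw [rfl1_apply]
    have hL : (L z) i = (if i = j then LinearIsometryEquiv.neg ℝ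
      else LinearIsometryEquiv.refl ℝ ℝ : ℝ ≃ₗᵢ[ℝ] ℝ) (z i) := rfl
    rw [Function.comp_apply, PiLp.add_apply, hL]
    by_cases h : i = j
    · subst h
      simp
      ring
    · simp [h]
  rw [h3]
  exact h2.comp h1

theorem rfl1_dist (j : Fin n) (m : ℝ) (z w : E n) : dist (rfl1 j m z) (rfl1 j m w) = dist z w := by
  rw [EuclideanSpace.dist_eq, EuclideanSpace.dist_eq]
  congr 1
  apply Finset.sum_congr rfl
  intro i _
  rw [rfl1_apply, rfl1_apply]
  by_cases h : i = j
  · rw [if_pos h, if_pos h, Real.dist_eq, Real.dist_eq]
    congr 1
    rw [abs_sub_comm]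
    congr 1
    ring
  · rw [if_neg h, if_neg h]

theorem rfl1_rfl1 (j : Fin n) (m : ℝ) (z : E n) : rfl1 j m (rfl1 j m z) = z := by
  ext i
  rw [rfl1_apply, rfl1_apply]
  by_cases h : i = j
  · rw [if_pos h, if_pos h]
    ring
  · rw [if_neg h, if_neg h]

/-- change of one coordinate -/
noncomputable def upd (y : E n) (j : Fin n) (a : ℝ) : E n :=
  WithLp.toLp 2 (fun i => if i = j then a else y i)

theorem upd_apply (y : E n) (j : Fin n) (a : ℝ) (i : Fin n) :
    upd y j a i = if i = j then a else y i := rfl

theorem one_coord (F : E n → ℝ≥0∞) (hF : Measurable F) (hBD : BD F) (r : ℝ) (y : E n) (j : Fin n)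
    (a : ℝ) (ha : |a| ≤ |y j|) :
    ∫⁻ z in Metric.ball y r, F z ≤ ∫⁻ z in Metric.ball (upd y j a) r, F z := by
  by_cases hab : a = y j
  · have : upd y j a = y := by
      ext i
      rw [upd_apply]
      by_cases h : i = j
      · rw [if_pos h, hab, h]
      · rw [if_neg h]
    rw [this]
  set x := upd y j a with hx
  set m := (a + y j) / 2 with hm
  have hxy : rfl1 j m x = y := by
    ext i
    rw [rfl1_apply, hx, upd_apply]
    by_cases h : i = j
    · rw [if_pos h, if_pos h, hm, h]
      ring
    · rw [if_neg h, if_neg h]
  have hyx : rfl1 j m y = x := by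
    rw [← hxy, rfl1_rfl1]
  set A := Metric.ball y r \ Metric.ball x r with hA
  set B := Metric.ball x r \ Metric.ball y r with hB
  have hAm : MeasurableSet A := measurableSet_ball.diff measurableSet_ball
  have hBm : MeasurableSet B := measurableSet_ball.diff measurableSet_ball
  have hpre : rfl1 j m ⁻¹' B = A := by
    ext z
    rw [mem_preimage, hB, hA, mem_diff, mem_diff, Metric.mem_ball, Metric.mem_ball,
      Metric.mem_ball, Metric.mem_ball]
    have e1 : dist (rfl1 j m z) x = dist z y := by
      rw [← hyx, rfl1_dist]
    have e2 : dist (rfl1 j m z) y = dist z x := by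
      rw [← hxy, rfl1_dist]
    rw [e1, e2]
  have hkey : ∀ z ∈ A, F z ≤ F (rfl1 j m z) := by
    intro z hz
    rw [hA, mem_diff, Metric.mem_ball, Metric.mem_ball] at hz
    apply hBD
    intro i
    rw [rfl1_apply]
    by_cases h : i = j
    · rw [if_pos h, h]
      -- |z_j - y_j| < |z_j - a|
      have h1 : dist z y < dist z x := lt_of_lt_of_le hz.1 (not_lt.1 hz.2)
      rw [EuclideanSpace.dist_eq, EuclideanSpace.dist_eq] at h1
      have h2 := lt_of_not_ge (fun hge => absurd (Real.sqrt_le_sqrt hge) (not_le.2 h1))
      rw [← Finset.add_sum_erase _ _ (Finset.mem_univ j),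
        ← Finset.add_sum_erase _ (fun i => dist (z i) (x i) ^ 2) (Finset.mem_univ j)] at h2
      have h3 : ∑ i ∈ Finset.univ.erase j, dist (z i) (y i) ^ 2 =
          ∑ i ∈ Finset.univ.erase j, dist (z i) (x i) ^ 2 := by
        apply Finset.sum_congr rfl
        intro i hi
        rw [hx, upd_apply, if_neg (Finset.ne_of_mem_erase hi)]
      rw [h3] at h2
      have h4 : dist (z j) (y j) ^ 2 < dist (z j) (x j) ^ 2 := by linarith
      rw [Real.dist_eq, Real.dist_eq, sq_abs, sq_abs, hx, upd_apply, if_pos rfl] at h4
      -- sign analysis
      have h5 : 0 < (y j - a) * (z j - m) := by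
        rw [hm]
        nlinarith
      rw [abs_le]
      rcases lt_trichotomy (y j) 0 with hb | hb | hb
      · have h6 : |y j| = - y j := abs_of_neg hb
        rw [h6] at ha
        have h7 := abs_le.1 ha
        have h8 : y j < a := lt_of_le_of_ne (by linarith [h7.1]) (fun h => hab h.symm)
        have h9 : z j < m := by
          by_contra hcon
          push Not at hcon
          have : (y j - a) * (z j - m) ≤ 0 :=
            mul_nonpos_of_nonpos_of_nonneg (by linarith) (by linarith)
          linarith
        have h10 : m ≤ 0 := by
          rw [hm]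
          linarith [h7.2]
        have h11 : |z j| = - z j := abs_of_neg (by linarith)
        rw [h11]
        constructor
        · linarith
        · linarith
      · rw [hb, abs_zero] at ha
        have : a = 0 := abs_nonpos_iff.1 ha
        exact absurd (this.trans hb.symm) hab
      · have h6 : |y j| = y j := abs_of_pos hb
        rw [h6] at ha
        have h7 := abs_le.1 ha
        have h8 : a < y j := lt_of_le_of_ne h7.2 hab
        have h9 : m < z j := by
          by_contra hcon
          push Not at hcon
          have : (y j - a) * (z j - m) ≤ 0 :=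
            mul_nonpos_of_nonneg_of_nonpos (by linarith) (by linarith)
          linarith
        have h10 : 0 ≤ m := by
          rw [hm]
          linarith [h7.1]
        have h11 : |z j| = z j := abs_of_pos (by linarith)
        rw [h11]
        constructor
        · linarith
        · linarith
    · rw [if_neg h]
  have hAB : ∫⁻ z in A, F z ≤ ∫⁻ z in B, F z := by
    calc ∫⁻ z in A, F z ≤ ∫⁻ z in A, F (rfl1 j m z) := setLIntegral_mono' hAm hkey
      _ = ∫⁻ z in rfl1 j m ⁻¹' B, F (rfl1 j m z) := by rw [hpre]
      _ = ∫⁻ z in B, F z := (rfl1_mp j m).setLIntegral_comp_preimage hBm hF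
  have e1 := lintegral_inter_add_diff (μ := volume) F (Metric.ball y r)
    (measurableSet_ball : MeasurableSet (Metric.ball x r))
  have e2 := lintegral_inter_add_diff (μ := volume) F (Metric.ball x r)
    (measurableSet_ball : MeasurableSet (Metric.ball y r))
  rw [← e1, ← e2, inter_comm]
  exact add_le_add le_rfl hAB

theorem ball : StmtBall := by
  intro n F hF hBD r x y hxy
  have key : ∀ s : Finset (Fin n), ∫⁻ z in Metric.ball y r, F z ≤
      ∫⁻ z in Metric.ball (WithLp.toLp 2 (fun i => if i ∈ s then x i else y i) : E n) r, F z := by
    intro s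
    induction s using Finset.induction_on with
    | empty =>
      have : (WithLp.toLp 2 (fun i => if i ∈ (∅ : Finset (Fin n)) then x i else y i) : E n) = y := by
        ext i
        simp
      rw [this]
    | insert j s hj ih =>
      refine ih.trans ?_
      have h1 := one_coord F hF hBD r
        (WithLp.toLp 2 (fun i => if i ∈ s then x i else y i) : E n) j (x j) (by
          have : ((WithLp.toLp 2 (fun i => if i ∈ s then x i else y i) : E n)) j = y j := by
            simp [hj]
          rw [this]
          exact hxy j)
      refine h1.trans (le_of_eq ?_)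
      congr 2
      congr 1
      ext i
      rw [upd_apply]
      by_cases h : i = j
      · subst h
        simp
      · simp [h]
  have h := key Finset.univ
  have h2 : (WithLp.toLp 2 (fun i => if i ∈ (Finset.univ : Finset (Fin n)) then x i else y i) : E n)
      = x := by
    ext i
    simp
  rw [h2] at h
  exact h

end P137
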