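import Vale.Agent.P137.Fub

/-!
P137, module LOW (helper4): the variation of a block-decreasing function controls its
hyperplane integrals.
-/

open MeasureTheory ENNReal Set

namespace P137
namespace LowM

/-- smooth step from -1 to 1 on [-ε, ε] -/
noncomputable def eta (ε t : ℝ) : ℝ := 2 * Real.smoothTransition ((t / ε + 1) / 2) - 1

theorem eta_contDiff (ε : ℝ) : ContDiff ℝ (⊤ : ℕ∞) (eta ε) := by
  unfold eta
  have h1 : ContDiff ℝ (⊤ : ℕ∞) (fun t : ℝ => (t / ε + 1) / 2) := by fun_prop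
  have h2 : ContDiff ℝ (⊤ : ℕ∞) (fun t : ℝ => Real.smoothTransition ((t / ε + 1) / 2)) :=
    (Real.smoothTransition.contDiff (n := ⊤)).comp h1
  exact (contDiff_const.mul h2).sub contDiff_const

theorem eta_le (ε t : ℝ) : |eta ε t| ≤ 1 := by
  unfold eta
  rw [abs_le]
  have h1 := Real.smoothTransition.nonneg ((t / ε + 1) / 2)
  have h2 := Real.smoothTransition.le_one ((t / ε + 1) / 2)
  constructor <;> linarith

theorem eta_mono {ε : ℝ} (hε : 0 < ε) : Monotone (eta ε) := by
  intro a b hab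
  unfold eta
  have h1 : (a / ε + 1) / 2 ≤ (b / ε + 1) / 2 := by
    have : a / ε ≤ b / ε := div_le_div_of_nonneg_right hab hε.le
    linarith
  have := Real.smoothTransition.monotone h1
  linarith

theorem eta_deriv_nonneg {ε : ℝ} (hε : 0 < ε) (t : ℝ) : 0 ≤ deriv (eta ε) t :=
  (eta_mono hε).deriv_nonneg

theorem eta_deriv_cont (ε : ℝ) : Continuous (deriv (eta ε)) :=
  (eta_contDiff ε).continuous_deriv (by simp)

theorem eta_int {ε : ℝ} (hε : 0 < ε) : ∫ t in (-ε)..ε, deriv (eta ε) t = 2 := by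
  rw [intervalIntegral.integral_deriv_eq_sub (fun x _ => ((eta_contDiff ε).differentiable
    (by simp)).differentiableAt) ((eta_deriv_cont ε).intervalIntegrable _ _)]
  unfold eta
  have h1 : (ε / ε + 1) / 2 = 1 := by field_simp; norm_num
  have h2 : (-ε / ε + 1) / 2 = 0 := by field_simp; norm_num
  rw [h1, h2, Real.smoothTransition.one, Real.smoothTransition.zero]
  norm_num

theorem eta_lint {ε : ℝ} (hε : 0 < ε) :
    ∫⁻ t in Icc (-ε) ε, ENNReal.ofReal (deriv (eta ε) t) = 2 := by
  rw [← ofReal_integral_eq_lintegral_ofReal]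
  · rw [integral_Icc_eq_integral_Ioc, ← intervalIntegral.integral_of_le (by linarith),
      eta_int hε]
    norm_num
  · exact (eta_deriv_cont ε).continuousOn.integrableOn_compact isCompact_Icc
  · exact Filter.Eventually.of_forall (fun t => eta_deriv_nonneg hε t)

section
variable {n : ℕ}

/-- the bump -/
noncomputable def chi : ContDiffBump (0 : E (n + 1)) := ⟨1, 2, one_pos, one_lt_two⟩

/-- scaled bump -/
noncomputable def chiR (R : ℝ) (x : E (n + 1)) : ℝ := chi (n := n) (R⁻¹ • x)

theorem chiR_contDiff (R : ℝ) : ContDiff ℝ (⊤ : ℕ∞) (chiR (n := n) R) := by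
  unfold chiR
  exact (ContDiffBump.contDiff (chi (n := n))).comp (contDiff_const_smul R⁻¹)

theorem chiR_supp {R : ℝ} (hR : 0 < R) : HasCompactSupport (chiR (n := n) R) := by
  unfold chiR
  exact (chi (n := n)).hasCompactSupport.comp_smul (by positivity)

theorem chiR_nonneg (R : ℝ) (x : E (n + 1)) : 0 ≤ chiR R x := (chi (n := n)).nonneg

theorem chiR_le_one (R : ℝ) (x : E (n + 1)) : chiR R x ≤ 1 := (chi (n := n)).le_one

theorem chiR_one {R : ℝ} (hR : 0 < R) (x : E (n + 1)) (hx : ‖x‖ ≤ R) : chiR R x = 1 := by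
  unfold chiR
  apply (chi (n := n)).one_of_mem_closedBall
  rw [mem_closedBall_zero_iff, norm_smul, norm_inv, Real.norm_eq_abs, abs_of_pos hR]
  show R⁻¹ * ‖x‖ ≤ 1
  rw [inv_mul_le_iff₀ hR, mul_one]
  exact hx

theorem chiR_fderiv : ∃ C : ℝ, 0 ≤ C ∧ ∀ (R : ℝ) (j : Fin (n + 1)) (x : E (n + 1)), 0 < R →
    |fderiv ℝ (chiR R) x (EuclideanSpace.single j 1)| ≤ C / R := by
  have hc : Continuous (fderiv ℝ (chi (n := n))) :=
    (ContDiffBump.contDiff (n := ⊤) (chi (n := n))).continuous_fderiv (by simp)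
  have hs : HasCompactSupport (fderiv ℝ (chi (n := n))) :=
    (chi (n := n)).hasCompactSupport.fderiv (𝕜 := ℝ)
  obtain ⟨C, hC⟩ := hc.bounded_above_of_compact_support hs
  refine ⟨C, (norm_nonneg _).trans (hC 0), ?_⟩
  intro R j x hR
  have hd : DifferentiableAt ℝ (chi (n := n)) (R⁻¹ • x) :=
    ((ContDiffBump.contDiff (n := ⊤) (chi (n := n))).differentiable (by simp)).differentiableAt
  have h1 : HasFDerivAt (chiR R) ((fderiv ℝ (chi (n := n)) (R⁻¹ • x)).comp
      (R⁻¹ • ContinuousLinearMap.id ℝ (E (n + 1)))) x := by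
    unfold chiR
    exact hd.hasFDerivAt.comp x ((hasFDerivAt_id x).const_smul R⁻¹)
  rw [h1.fderiv]
  simp only [ContinuousLinearMap.comp_apply, _root_.smul_apply,
    ContinuousLinearMap.id_apply, map_smul, smul_eq_mul]
  rw [abs_mul, abs_inv, abs_of_pos hR, inv_mul_eq_div]
  apply div_le_div_of_nonneg_right _ hR.le
  have h2 := (fderiv ℝ (chi (n := n)) (R⁻¹ • x)).le_opNorm (EuclideanSpace.single j 1)
  rw [Real.norm_eq_abs] at h2
  refine h2.trans ?_
  rw [EuclideanSpace.norm_single, norm_one, mul_one]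
  exact hC _

/-- scalar test function -/
noncomputable def psi (ε R : ℝ) (j : Fin (n + 1)) (x : E (n + 1)) : ℝ := eta ε (x j) * chiR R x

theorem etaj_contDiff (ε : ℝ) (j : Fin (n + 1)) :
    ContDiff ℝ (⊤ : ℕ∞) (fun x : E (n + 1) => eta ε (x j)) :=
  (eta_contDiff ε).comp (EuclideanSpace.proj (𝕜 := ℝ) j).contDiff

theorem psi_contDiff (ε R : ℝ) (j : Fin (n + 1)) :
    ContDiff ℝ (⊤ : ℕ∞) (psi (n := n) ε R j) := by
  unfold psi
  exact (etaj_contDiff ε j).mul (chiR_contDiff R)

theorem psi_supp (ε : ℝ) {R : ℝ} (hR : 0 < R) (j : Fin (n + 1)) :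
    HasCompactSupport (psi (n := n) ε R j) := by
  unfold psi
  exact (chiR_supp hR).mul_left

theorem psi_fderiv (ε R : ℝ) (j : Fin (n + 1)) (x : E (n + 1)) :
    fderiv ℝ (psi ε R j) x (EuclideanSpace.single j 1) =
      chiR R x * deriv (eta ε) (x j) +
        eta ε (x j) * fderiv ℝ (chiR R) x (EuclideanSpace.single j 1) := by
  have h1 : DifferentiableAt ℝ (chiR (n := n) R) x :=
    ((chiR_contDiff R).differentiable (by simp)).differentiableAt
  have h2 : HasFDerivAt (fun x : E (n + 1) => eta ε (x j))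
      ((deriv (eta ε) (x j)) • (EuclideanSpace.proj (𝕜 := ℝ) j : E (n + 1) →L[ℝ] ℝ)) x := by
    have h3 : HasDerivAt (eta ε) (deriv (eta ε) (x j)) (x j) :=
      (((eta_contDiff ε).differentiable (by simp)).differentiableAt).hasDerivAt
    exact h3.comp_hasFDerivAt x (EuclideanSpace.proj (𝕜 := ℝ) j).hasFDerivAt
  have h4 : HasFDerivAt (psi ε R j) _ x := h2.mul h1.hasFDerivAt
  rw [h4.fderiv]
  simp only [_root_.add_apply, _root_.smul_apply, smul_eq_mul]
  have h5 : (EuclideanSpace.proj (𝕜 := ℝ) j : E (n + 1) →L[ℝ] ℝ) (EuclideanSpace.single j 1) = 1 := by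
    simp
  rw [h5]
  ring

/-- test field -/
noncomputable def phi (ε R : ℝ) (j : Fin (n + 1)) (x : E (n + 1)) : E (n + 1) :=
  psi ε R j x • EuclideanSpace.single j (1 : ℝ)

theorem phi_contDiff (ε R : ℝ) (j : Fin (n + 1)) :
    ContDiff ℝ (⊤ : ℕ∞) (phi (n := n) ε R j) := by
  unfold phi
  exact (psi_contDiff ε R j).smul contDiff_const

theorem phi_supp (ε : ℝ) {R : ℝ} (hR : 0 < R) (j : Fin (n + 1)) :
    HasCompactSupport (phi (n := n) ε R j) := by
  unfold phi
  exact (psi_supp ε hR j).smul_right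

theorem phi_norm (ε R : ℝ) (j : Fin (n + 1)) (x : E (n + 1)) : ‖phi ε R j x‖ ≤ 1 := by
  unfold phi psi
  rw [norm_smul, EuclideanSpace.norm_single, norm_one, mul_one, Real.norm_eq_abs, abs_mul,
    abs_of_nonneg (chiR_nonneg R x)]
  have h1 := eta_le ε (x j)
  have h2 := chiR_le_one R x
  have h3 := chiR_nonneg R x
  have h4 := abs_nonneg (eta ε (x j))
  nlinarith

theorem phi_div (ε R : ℝ) (j : Fin (n + 1)) (x : E (n + 1)) :
    divergence (phi ε R j) x = chiR R x * deriv (eta ε) (x j) +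
        eta ε (x j) * fderiv ℝ (chiR R) x (EuclideanSpace.single j 1) := by
  rw [← psi_fderiv]
  unfold divergence
  have h1 : HasFDerivAt (phi ε R j)
      ((fderiv ℝ (psi ε R j) x).smulRight (EuclideanSpace.single j (1 : ℝ))) x := by
    unfold phi
    exact (((psi_contDiff ε R j).differentiable (by simp)).differentiableAt.hasFDerivAt).smul_const _
  rw [h1.fderiv, Finset.sum_eq_single j]
  · simp
  · intro i _ hij
    simp [hij]
  · intro h
    exact absurd (Finset.mem_univ j) h

theorem ins_same (j : Fin (n + 1)) (t : ℝ) (x : Fin n → ℝ) : ins j t x j = t := by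
  simp [ins]

theorem ins_succ (j : Fin (n + 1)) (t : ℝ) (x : Fin n → ℝ) (i : Fin n) :
    ins j t x (j.succAbove i) = x i := by
  simp [ins]

theorem ins_abs_le (j : Fin (n + 1)) {s t : ℝ} (hst : |s| ≤ |t|) (x : Fin n → ℝ) (i : Fin (n + 1)) :
    |ins j s x i| ≤ |ins j t x i| := by
  rcases Fin.eq_self_or_eq_succAbove j i with h | ⟨k, h⟩
  · subst h
    rw [ins_same, ins_same]
    exact hst
  · subst h
    rw [ins_succ, ins_succ]

theorem ins_norm_le (j : Fin (n + 1)) {s t : ℝ} (hst : |s| ≤ |t|) (x : Fin n → ℝ) :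
    ‖ins j s x‖ ≤ ‖ins j t x‖ := by
  rw [EuclideanSpace.norm_eq, EuclideanSpace.norm_eq]
  apply Real.sqrt_le_sqrt
  apply Finset.sum_le_sum
  intro i _
  apply pow_le_pow_left₀ (norm_nonneg _)
  exact ins_abs_le j hst x i

theorem ins_cont (j : Fin (n + 1)) (t : ℝ) : Continuous (fun x : Fin n → ℝ => ins j t x) := by
  unfold ins
  exact (PiLp.continuous_toLp 2 _).comp (continuous_const.finInsertNth j continuous_id)

/-- truncated boundary value -/
noncomputable def tr (f : E (n + 1) → ℝ) (j : Fin (n + 1)) (ε R : ℝ) (x : Fin n → ℝ) : ℝ≥0∞ := by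
  classical
  exact if ‖ins j 1 x‖ ≤ R then ENNReal.ofReal (f (ins j ε x)) else 0

theorem tr_meas (f : E (n + 1) → ℝ) (hm : Measurable f) (j : Fin (n + 1)) (ε R : ℝ) :
    Measurable (tr f j ε R) := by
  classical
  unfold tr
  apply Measurable.ite
  · exact measurableSet_le (ins_cont j 1).norm.measurable measurable_const
  · exact (hm.comp (ins_cont j ε).measurable).ennreal_ofReal
  · exact measurable_const

theorem slab (hF : StmtFub) (f : E (n + 1) → ℝ) (hm : Measurable f) (hb : BlockDecreasing f)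
    (h0 : ∀ x, 0 ≤ f x) (j : Fin (n + 1)) {ε R : ℝ} (hε : 0 < ε) (hε1 : ε ≤ 1) (hR : 0 < R) :
    2 * ∫⁻ x : Fin n → ℝ, tr f j ε R x ≤
      ∫⁻ x : E (n + 1), ENNReal.ofReal (f x * (chiR R x * deriv (eta ε) (x j))) := by
  have hmeas : Measurable (fun x : E (n + 1) =>
      ENNReal.ofReal (f x * (chiR R x * deriv (eta ε) (x j)))) := by
    apply Measurable.ennreal_ofReal
    apply hm.mul
    apply (chiR_contDiff R).continuous.measurable.mul
    exact ((eta_deriv_cont ε).comp (EuclideanSpace.proj (𝕜 := ℝ) j).continuous).measurable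
  rw [hF n j _ hmeas, ← lintegral_const_mul _ (tr_meas f hm j ε R)]
  apply lintegral_mono
  intro x
  simp only
  unfold tr
  by_cases hx : ‖ins j 1 x‖ ≤ R
  · rw [if_pos hx]
    calc 2 * ENNReal.ofReal (f (ins j ε x))
        = ENNReal.ofReal (f (ins j ε x)) *
            ∫⁻ t in Icc (-ε) ε, ENNReal.ofReal (deriv (eta ε) t) := by
          rw [eta_lint hε, mul_comm]
      _ = ∫⁻ t in Icc (-ε) ε, ENNReal.ofReal (f (ins j ε x)) *
            ENNReal.ofReal (deriv (eta ε) t) := by
          rw [lintegral_const_mul _ (eta_deriv_cont ε).measurable.ennreal_ofReal]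
      _ ≤ ∫⁻ t in Icc (-ε) ε, ENNReal.ofReal (f (ins j t x) *
            (chiR R (ins j t x) * deriv (eta ε) (ins j t x j))) := by
          apply setLIntegral_mono' measurableSet_Icc
          intro t ht
          rw [← ENNReal.ofReal_mul (h0 _)]
          apply ENNReal.ofReal_le_ofReal
          have ht1 : |t| ≤ |ε| := by
            rw [abs_of_pos hε]
            exact abs_le.2 ⟨ht.1, ht.2⟩
          have ht2 : |t| ≤ |(1 : ℝ)| := by
            rw [abs_one]
            rw [abs_of_pos hε] at ht1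
            linarith
          rw [chiR_one hR _ ((ins_norm_le j ht2 x).trans hx), one_mul, ins_same]
          exact mul_le_mul_of_nonneg_right (hb _ _ (ins_abs_le j ht1 x))
            (eta_deriv_nonneg hε t)
      _ ≤ ∫⁻ t, ENNReal.ofReal (f (ins j t x) *
            (chiR R (ins j t x) * deriv (eta ε) (ins j t x j))) := setLIntegral_le_lintegral _ _
  · rw [if_neg hx, mul_zero]
    exact zero_le

theorem div_bound (f : E (n + 1) → ℝ) (h0 : ∀ x, 0 ≤ f x)
    (hi : Integrable f) (j : Fin (n + 1)) {ε R C : ℝ} (hε : 0 < ε) (hR : 0 < R)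
    (hC : ∀ x : E (n + 1), |fderiv ℝ (chiR R) x (EuclideanSpace.single j 1)| ≤ C / R) :
    ∫⁻ x : E (n + 1), ENNReal.ofReal (f x * (chiR R x * deriv (eta ε) (x j))) ≤
      variation f + ENNReal.ofReal (C / R * ∫ x, f x) := by
  have hc1 : Continuous (fun x : E (n + 1) => chiR R x * deriv (eta ε) (x j)) :=
    (chiR_contDiff R).continuous.mul
      ((eta_deriv_cont ε).comp (EuclideanSpace.proj (𝕜 := ℝ) j).continuous)
  have hs1 : HasCompactSupport (fun x : E (n + 1) => chiR R x * deriv (eta ε) (x j)) :=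
    (chiR_supp hR).mul_right
  have hc2 : Continuous (fun x : E (n + 1) =>
      eta ε (x j) * fderiv ℝ (chiR R) x (EuclideanSpace.single j 1)) :=
    (etaj_contDiff ε j).continuous.mul
      (((chiR_contDiff R).continuous_fderiv (by simp)).clm_apply continuous_const)
  have hb2 : ∀ x : E (n + 1), ‖eta ε (x j) * fderiv ℝ (chiR R) x (EuclideanSpace.single j 1)‖ ≤
      C / R := by
    intro x
    rw [Real.norm_eq_abs, abs_mul]
    have h1 := eta_le ε (x j)
    have h2 := hC x
    have h3 := abs_nonneg (fderiv ℝ (chiR R) x (EuclideanSpace.single j 1))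
    nlinarith [abs_nonneg (eta ε (x j))]
  obtain ⟨C1, hC1⟩ := hc1.bounded_above_of_compact_support hs1
  have hi1 : Integrable (fun x : E (n + 1) => f x * (chiR R x * deriv (eta ε) (x j))) :=
    hi.mul_bdd hc1.aestronglyMeasurable (Filter.Eventually.of_forall hC1)
  have hi2 : Integrable (fun x : E (n + 1) =>
      f x * (eta ε (x j) * fderiv ℝ (chiR R) x (EuclideanSpace.single j 1))) :=
    hi.mul_bdd hc2.aestronglyMeasurable (Filter.Eventually.of_forall hb2)
  have hsum : ∫ x, f x * divergence (phi ε R j) x =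
      (∫ x, f x * (chiR R x * deriv (eta ε) (x j))) +
      ∫ x, f x * (eta ε (x j) * fderiv ℝ (chiR R) x (EuclideanSpace.single j 1)) := by
    rw [← integral_add hi1 hi2]
    apply integral_congr_ae
    apply Filter.Eventually.of_forall
    intro x
    simp only
    rw [phi_div]
    ring
  have hlow : |∫ x, f x * (eta ε (x j) * fderiv ℝ (chiR R) x (EuclideanSpace.single j 1))| ≤
      C / R * ∫ x, f x := by
    rw [← integral_const_mul, ← Real.norm_eq_abs]
    refine (norm_integral_le_integral_norm _).trans ?_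
    apply integral_mono hi2.norm (hi.const_mul _)
    intro x
    simp only
    rw [norm_mul, Real.norm_eq_abs (f x), abs_of_nonneg (h0 x), mul_comm]
    exact mul_le_mul_of_nonneg_right (hb2 x) (h0 x)
  have hvar : ENNReal.ofReal (∫ x, f x * divergence (phi ε R j) x) ≤ variation f := by
    unfold variation
    exact le_iSup_of_le (phi ε R j) (le_iSup_of_le (phi_contDiff ε R j)
      (le_iSup_of_le (phi_supp ε hR j) (le_iSup_of_le (phi_norm ε R j) le_rfl)))
  rw [← ofReal_integral_eq_lintegral_ofReal hi1 (Filter.Eventually.of_forall (fun x =>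
    mul_nonneg (h0 x) (mul_nonneg (chiR_nonneg R x) (eta_deriv_nonneg hε _))))]
  have h3 : (∫ x, f x * (chiR R x * deriv (eta ε) (x j))) ≤
      (∫ x, f x * divergence (phi ε R j) x) + C / R * ∫ x, f x := by
    rw [hsum]
    have := (abs_le.1 hlow).1
    linarith
  calc ENNReal.ofReal (∫ x, f x * (chiR R x * deriv (eta ε) (x j)))
      ≤ ENNReal.ofReal ((∫ x, f x * divergence (phi ε R j) x) + C / R * ∫ x, f x) :=
        ENNReal.ofReal_le_ofReal h3
    _ ≤ _ := ENNReal.ofReal_add_le
    _ ≤ _ := by gcongr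

theorem tr_mono (f : E (n + 1) → ℝ) (hb : BlockDecreasing f) (j : Fin (n + 1))
    {k l : ℕ} (hkl : k ≤ l) (x : Fin n → ℝ) :
    tr f j (1 / ((k : ℝ) + 1)) ((k : ℝ) + 1) x ≤ tr f j (1 / ((l : ℝ) + 1)) ((l : ℝ) + 1) x := by
  have hkl' : (k : ℝ) ≤ l := by exact_mod_cast hkl
  have hk0 : (0 : ℝ) ≤ k := Nat.cast_nonneg k
  unfold tr
  by_cases h : ‖ins j 1 x‖ ≤ (k : ℝ) + 1
  · rw [if_pos h, if_pos (by linarith)]
    apply ENNReal.ofReal_le_ofReal
    apply hb
    intro i
    apply ins_abs_le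
    rw [abs_of_pos (by positivity), abs_of_pos (by positivity)]
    exact one_div_le_one_div_of_le (by linarith) (by linarith)
  · rw [if_neg h]
    exact zero_le

theorem tr_sup (f : E (n + 1) → ℝ) (hb : BlockDecreasing f) (j : Fin (n + 1)) (x : Fin n → ℝ) :
    edge (fun y => ENNReal.ofReal (f y)) j x ≤
      ⨆ k : ℕ, tr f j (1 / ((k : ℝ) + 1)) ((k : ℝ) + 1) x := by
  unfold edge
  apply iSup_le
  intro k
  obtain ⟨m, hm⟩ := exists_nat_ge ‖ins j 1 x‖
  refine le_iSup_of_le (max k m) ?_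
  have h1 : (m : ℝ) ≤ ((max k m : ℕ) : ℝ) := by exact_mod_cast le_max_right k m
  have h2 : (k : ℝ) ≤ ((max k m : ℕ) : ℝ) := by exact_mod_cast le_max_left k m
  have hk0 : (0 : ℝ) ≤ k := Nat.cast_nonneg k
  unfold tr
  rw [if_pos (by linarith)]
  apply ENNReal.ofReal_le_ofReal
  apply hb
  intro i
  apply ins_abs_le
  rw [abs_of_pos (by positivity), abs_of_pos (by positivity)]
  exact one_div_le_one_div_of_le (by linarith) (by linarith)

end

end LowM

open LowM in
/-- module LOW, from FUB -/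
theorem low_of_fub (hF : StmtFub) : StmtLow := by
  intro n f hm hb h0 hi j
  obtain ⟨C, hC0, hC⟩ := chiR_fderiv (n := n)
  set a : ℕ → ℝ≥0∞ := fun k => ∫⁻ x : Fin n → ℝ, tr f j (1 / ((k : ℝ) + 1)) ((k : ℝ) + 1) x
    with ha
  have hmono : Monotone a := by
    intro k l hkl
    exact lintegral_mono (fun x => tr_mono f hb j hkl x)
  have hbound : ∀ k : ℕ, 2 * a k ≤
      variation f + ENNReal.ofReal (C / ((k : ℝ) + 1) * ∫ x, f x) := by
    intro k
    have hk0 : (0 : ℝ) ≤ k := Nat.cast_nonneg k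
    refine (slab hF f hm hb h0 j (by positivity) ?_ (by positivity)).trans
      (div_bound f h0 hi j (by positivity) (by positivity) (fun x => hC _ j x (by positivity)))
    rw [div_le_one (by positivity)]
    linarith
  have hlim : Filter.Tendsto (fun k : ℕ => variation f +
      ENNReal.ofReal (C / ((k : ℝ) + 1) * ∫ x, f x)) Filter.atTop (nhds (variation f)) := by
    have h1 : Filter.Tendsto (fun k : ℕ => C / ((k : ℝ) + 1) * ∫ x, f x) Filter.atTop
        (nhds (0 * ∫ x, f x)) := by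
      apply Filter.Tendsto.mul_const
      have h2 : Filter.Tendsto (fun k : ℕ => C * (1 / ((k : ℝ) + 1))) Filter.atTop
          (nhds (C * 0)) := tendsto_one_div_add_atTop_nhds_zero_nat.const_mul C
      rw [mul_zero] at h2
      refine h2.congr (fun k => ?_)
      ring
    rw [zero_mul] at h1
    have h3 := (ENNReal.tendsto_ofReal h1).const_add (variation f)
    rw [ENNReal.ofReal_zero, add_zero] at h3
    exact h3
  have hsup : ∀ K, 2 * a K ≤ variation f := by
    intro K
    refine ge_of_tendsto hlim ?_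
    filter_upwards [Filter.eventually_ge_atTop K] with k hk
    exact (mul_le_mul_right (hmono hk) 2).trans (hbound k)
  calc 2 * ∫⁻ x : Fin n → ℝ, edge (fun y => ENNReal.ofReal (f y)) j x
      ≤ 2 * ∫⁻ x : Fin n → ℝ, ⨆ k : ℕ, tr f j (1 / ((k : ℝ) + 1)) ((k : ℝ) + 1) x := by
        gcongr
        exact tr_sup f hb j _
    _ = 2 * ⨆ k, a k := by
        rw [lintegral_iSup (fun k => tr_meas f hm j _ _) (fun k l hkl x => tr_mono f hb j hkl x)]
    _ = ⨆ k, 2 * a k := ENNReal.mul_iSup _ _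
    _ ≤ variation f := iSup_le hsup

/-- module LOW -/
theorem low : StmtLow := low_of_fub fub

end P137
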