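import Vale.Agent.P137.Defs

/-! P137, module MEAS: the maximal function is measurable. -/

open MeasureTheory ENNReal Set

namespace P137

theorem lsc_measure_ball {n : ℕ} (μ : Measure (E n)) (r : ℝ) :
    LowerSemicontinuous (fun x : E n => μ (Metric.ball x r)) := by
  intro x c hc
  have hU : Metric.ball x r = ⋃ k : ℕ, Metric.ball x (r - 1 / ((k : ℝ) + 1)) := by
    ext z
    rw [mem_iUnion]
    constructor
    · intro hz
      rw [Metric.mem_ball] at hz
      obtain ⟨k, hk⟩ := exists_nat_one_div_lt (sub_pos.2 hz)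
      refine ⟨k, ?_⟩
      rw [Metric.mem_ball]
      linarith
    · rintro ⟨k, hk⟩
      rw [Metric.mem_ball] at hk ⊢
      have : (0 : ℝ) < 1 / ((k : ℝ) + 1) := by positivity
      linarith
  have hmono : Monotone (fun k : ℕ => Metric.ball x (r - 1 / ((k : ℝ) + 1))) := by
    intro k l hkl
    apply Metric.ball_subset_ball
    have h1 : 1 / ((l : ℝ) + 1) ≤ 1 / ((k : ℝ) + 1) := by
      apply one_div_le_one_div_of_le (by positivity)
      have : (k : ℝ) ≤ l := by exact_mod_cast hkl
      linarith
    linarith
  have hc' : c < μ (⋃ k : ℕ, Metric.ball x (r - 1 / ((k : ℝ) + 1))) := by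
    rw [← hU]
    exact hc
  rw [hmono.measure_iUnion, lt_iSup_iff] at hc'
  obtain ⟨k, hk⟩ := hc'
  have hpos : (0 : ℝ) < 1 / ((k : ℝ) + 1) := by positivity
  filter_upwards [Metric.ball_mem_nhds x hpos] with x' hx'
  refine hk.trans_le (measure_mono ?_)
  apply Metric.ball_subset_ball'
  rw [Metric.mem_ball, dist_comm] at hx'
  linarith

theorem meas : StmtMeas := by
  intro n f hf
  apply LowerSemicontinuous.measurable
  unfold maxFun
  apply lowerSemicontinuous_iSup
  intro r
  apply lowerSemicontinuous_iSup
  intro hr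
  have h1 : (fun x : E n => (∫⁻ y in Metric.ball x r, ‖f y‖ₑ) / volume (Metric.ball x r)) =
      fun x => ((volume (Metric.ball (0 : E n) r))⁻¹ •
        (volume.withDensity (fun y => ‖f y‖ₑ))) (Metric.ball x r) := by
    funext x
    rw [Measure.smul_apply, withDensity_apply _ measurableSet_ball,
      Measure.addHaar_ball_center volume x r, smul_eq_mul, ENNReal.div_eq_inv_mul]
  rw [h1]
  exact lsc_measure_ball _ r

end P137
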