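import Vale.Agent.P137.Fub

/-! P137: integrable block-decreasing functions are nonnegative. -/

open MeasureTheory ENNReal Set

namespace P137

theorem nn : StmtNN := by
  intro n f hf hint x
  by_contra hx
  push Not at hx
  set S : Set (E (n + 1)) := {y | ∀ i, |x i| ≤ |y i|} with hS
  have hSm : MeasurableSet S := by
    have : S = ⋂ i, {y : E (n + 1) | |x i| ≤ |y i|} := by ext y; simp [hS]
    rw [this]
    refine MeasurableSet.iInter fun i => ?_
    exact measurableSet_le measurable_const (by fun_prop)
  have hle : ∀ y ∈ S, f y ≤ f x := fun y hy => hf x y hy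
  have hvol : volume S = ∞ := by
    have hsub : (Ici |x 0| ×ˢ (Set.pi univ fun i : Fin n => Ici |x (Fin.succAbove 0 i)|)) ⊆
        insEquiv (0 : Fin (n + 1)) ⁻¹' S := by
      rintro ⟨t, z⟩ ⟨ht, hz⟩
      rw [mem_preimage, insEquiv_apply]
      intro i
      rcases Fin.eq_self_or_eq_succAbove 0 i with rfl | ⟨k, rfl⟩
      · rw [ins_same]
        exact (mem_Ici.mp ht).trans (le_abs_self t)
      · rw [ins_succAbove]
        exact (mem_Ici.mp (hz k (mem_univ k))).trans (le_abs_self _)
    have h1 : volume (Ici |x 0| ×ˢ (Set.pi univ fun i : Fin n => Ici |x (Fin.succAbove 0 i)|)) = ∞ := by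
      rw [Measure.volume_eq_prod, Measure.prod_prod, Real.volume_Ici, volume_pi_pi]
      simp only [Real.volume_Ici]
      rw [ENNReal.top_mul]
      exact (Finset.prod_ne_zero_iff.mpr fun _ _ => ENNReal.top_ne_zero)
    have h2 : volume (insEquiv (0 : Fin (n + 1)) ⁻¹' S) = volume S :=
      (measurePreserving_insEquiv 0).measure_preimage hSm.nullMeasurableSet
    rw [← h2]
    exact top_unique (h1 ▸ measure_mono hsub)
  have hfin : volume {y | -f x ≤ ‖f y‖} < ∞ := by
    have := hint.measure_norm_ge_lt_top (ε := -f x) (by linarith)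
    simpa using this
  have hsub : S ⊆ {y | -f x ≤ ‖f y‖} := by
    intro y hy
    have := hle y hy
    show -f x ≤ ‖f y‖
    rw [Real.norm_eq_abs, abs_of_neg (by linarith)]
    linarith
  have h3 := (measure_mono hsub).trans_lt hfin
  rw [hvol] at h3
  exact lt_irrefl _ h3

end P137
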