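import Vale.Agent.P137.Hint
import Vale.Agent.P137.NN

/-! P137: assembly. -/

open MeasureTheory ENNReal Set

namespace P137

lemma measurable_edge {n : ℕ} {F : E (n + 1) → ℝ≥0∞} (hF : Measurable F) (j : Fin (n + 1)) :
    Measurable (edge F j) := by
  unfold edge
  exact Measurable.iSup fun k => hF.comp (measurable_ins_right j _)

lemma lintegral_half {n : ℕ} {g : (Fin n → ℝ) → ℝ≥0∞} (hg : Measurable g) :
    ∫⁻ x : Fin n → ℝ, g (fun i => x i / 2) = 2 ^ n * ∫⁻ x, g x := by
  have h1 : (fun x : Fin n → ℝ => g (fun i => x i / 2)) = fun x => g ((2 : ℝ)⁻¹ • x) := by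
    ext x
    congr 1
    ext i
    simp [div_eq_inv_mul]
  rw [h1, ← lintegral_map hg (measurable_const_smul _),
    Measure.map_addHaar_smul _ (by norm_num : (2 : ℝ)⁻¹ ≠ 0), lintegral_smul_measure]
  congr 1
  simp [abs_of_pos]

lemma measurable_H {n : ℕ} {F : E (n + 1) → ℝ≥0∞} (hFm : Measurable F) (i : Fin (n + 1)) :
    Measurable (H F i) := by
  have h1 : H F i = fun x => ∫⁻ s in Ioi (0 : ℝ), (if |x i| ≤ 4 * s then 1 else 0) *
      (ENNReal.ofReal (s ^ (n + 2)))⁻¹ *
        ∫⁻ y : E (n + 1), if (∀ l, |y l - x l| ≤ s) then F y else 0 := by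
    ext x
    unfold H
    apply lintegral_congr
    intro s
    congr 1
    have hS : MeasurableSet {y : E (n + 1) | ∀ l, |y l - x l| ≤ s} := by
      have : {y : E (n + 1) | ∀ l, |y l - x l| ≤ s} =
          ⋂ l, {y : E (n + 1) | |y l - x l| ≤ s} := by
        ext p
        simp
      rw [this]
      exact MeasurableSet.iInter fun l => measurableSet_le (by fun_prop) (by fun_prop)
    rw [← lintegral_indicator hS]
    apply lintegral_congr
    intro y
    by_cases hy : ∀ l, |y l - x l| ≤ s
    · rw [if_pos hy]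
      exact indicator_of_mem (s := {y : E (n + 1) | ∀ l, |y l - x l| ≤ s}) hy F
    · rw [if_neg hy]
      exact indicator_of_notMem (s := {y : E (n + 1) | ∀ l, |y l - x l| ≤ s}) hy F
  rw [h1]
  have h2 : Measurable (fun p : (E (n + 1) × ℝ) × E (n + 1) =>
      if (∀ l, |p.2 l - p.1.1 l| ≤ p.1.2) then F p.2 else 0) := by
    refine Measurable.ite ?_ (hFm.comp measurable_snd) measurable_const
    have : {p : (E (n + 1) × ℝ) × E (n + 1) | ∀ l, |p.2 l - p.1.1 l| ≤ p.1.2} =
        ⋂ l, {p : (E (n + 1) × ℝ) × E (n + 1) | |p.2 l - p.1.1 l| ≤ p.1.2} := by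
      ext p
      simp
    rw [this]
    exact MeasurableSet.iInter fun l => measurableSet_le (by fun_prop) (by fun_prop)
  have h3 : Measurable (fun q : E (n + 1) × ℝ =>
      ∫⁻ y : E (n + 1), if (∀ l, |y l - q.1 l| ≤ q.2) then F y else 0) :=
    Measurable.lintegral_prod_right' h2
  have h4 : Measurable (fun q : E (n + 1) × ℝ =>
      (if |q.1 i| ≤ 4 * q.2 then (1 : ℝ≥0∞) else 0) * (ENNReal.ofReal (q.2 ^ (n + 2)))⁻¹) := by
    refine Measurable.mul (Measurable.ite ?_ measurable_const measurable_const) (by fun_prop)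
    exact measurableSet_le (by fun_prop) (by fun_prop)
  exact Measurable.lintegral_prod_right' (h4.mul h3)

theorem mainThm (hball : StmtBall) (hmeas : StmtMeas) (hlow : StmtLow) (hup : StmtUp) :
    StmtMain := by
  intro n
  obtain ⟨C1, hC1, hptw⟩ := ptw n
  obtain ⟨C2, hC2, hhint⟩ := hint n
  refine ⟨2 * ((n + 1) * (2 ^ n + C1 * ((n + 1) * (C2 * 2)))), by finiteness, ?_⟩
  intro f hfm hf hfi hV
  have hf0 : ∀ x, 0 ≤ f x := nn n f hf hfi
  set F : E (n + 1) → ℝ≥0∞ := fun y => ENNReal.ofReal (f y) with hFdef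
  have hFe : ∀ y, ‖f y‖ₑ = F y := fun y => Real.enorm_eq_ofReal (hf0 y)
  have hFm : Measurable F := ENNReal.measurable_ofReal.comp hfm
  have hF : BD F := fun x y h => ENNReal.ofReal_le_ofReal (hf x y h)
  have hU : ∀ x, maxFun f x = ⨆ (r : ℝ) (_ : 0 < r), (∫⁻ y in Metric.ball x r, F y) /
      volume (Metric.ball x r) := by
    intro x
    unfold maxFun
    simp only [hFe]
  have hBD : BD (maxFun f) := by
    intro x y hxy
    rw [hU, hU]
    apply iSup₂_mono
    intro r hr
    rw [Measure.addHaar_ball_center volume x r, Measure.addHaar_ball_center volume y r]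
    exact ENNReal.div_le_div_right (hball _ F hFm hF r x y hxy) _
  have hUm : Measurable (maxFun f) := hmeas _ f hfm
  have hedge : ∀ j : Fin (n + 1), ∫⁻ x : Fin n → ℝ, edge F j x ≤ variation f := by
    intro j
    refine le_trans ?_ (hlow n f hfm hf hf0 hfi j)
    exact le_mul_of_one_le_left' (by norm_num)
  have hplane : ∀ j : Fin (n + 1), ∫⁻ x : Fin n → ℝ, maxFun f (ins j 0 x) ≤
      (2 ^ n + C1 * ((n + 1) * (C2 * 2))) * variation f := by
    intro j
    have hHm : ∀ i : Fin (n + 1), i ≠ j → ∫⁻ x : Fin n → ℝ, H F i (ins j 0 x) ≤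
        C2 * 2 * variation f := by
      intro i hij
      refine (hhint F hFm hF i j hij).trans ?_
      rw [mul_assoc]
      gcongr
      rw [two_mul]
      exact add_le_add (hedge i) (hedge j)
    calc ∫⁻ x : Fin n → ℝ, maxFun f (ins j 0 x)
        ≤ ∫⁻ x : Fin n → ℝ, (edge F j (fun i => x i / 2) +
            C1 * ∑ i ∈ Finset.univ.erase j, H F i (ins j 0 x)) := by
          apply lintegral_mono_ae
          have : ∀ᵐ x : Fin n → ℝ, ∀ i, x i ≠ 0 := by
            rw [ae_all_iff]
            intro i
            rw [ae_iff]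
            have := Measure.pi_hyperplane (fun _ : Fin n => (volume : Measure ℝ)) i 0
            rw [← volume_pi] at this
            simpa using this
          filter_upwards [this] with x hx
          rw [hU]
          apply iSup₂_le
          intro r hr
          exact hptw F hFm hF j x hx r hr
      _ = (∫⁻ x : Fin n → ℝ, edge F j (fun i => x i / 2)) +
            ∫⁻ x : Fin n → ℝ, C1 * ∑ i ∈ Finset.univ.erase j, H F i (ins j 0 x) := by
          apply lintegral_add_left
          apply (measurable_edge hFm j).comp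
          fun_prop
      _ ≤ 2 ^ n * variation f + C1 * ((n + 1) * (C2 * 2 * variation f)) := by
          rw [lintegral_half (measurable_edge hFm j), lintegral_const_mul' _ _ hC1]
          gcongr
          · exact hedge j
          · have hsum : ∫⁻ x : Fin n → ℝ, ∑ i ∈ Finset.univ.erase j, H F i (ins j 0 x) ≤
                ∑ i ∈ Finset.univ.erase j, ∫⁻ x : Fin n → ℝ, H F i (ins j 0 x) := by
              rw [lintegral_finsetSum]
              intro i _
              exact (measurable_H hFm i).comp (measurable_ins_right j 0)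
            refine hsum.trans ?_
            calc ∑ i ∈ Finset.univ.erase j, ∫⁻ x : Fin n → ℝ, H F i (ins j 0 x)
                ≤ ∑ i ∈ Finset.univ.erase j, C2 * 2 * variation f :=
                  Finset.sum_le_sum fun i hi => hHm i (Finset.ne_of_mem_erase hi)
              _ ≤ ∑ i : Fin (n + 1), C2 * 2 * variation f :=
                  Finset.sum_le_sum_of_subset (Finset.erase_subset _ _)
              _ = _ := by
                  rw [Finset.sum_const, Finset.card_univ, Fintype.card_fin, nsmul_eq_mul]
                  push_cast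
                  ring
      _ = _ := by ring
  obtain ⟨h1, h2, h3⟩ := hup n (maxFun f) hUm hBD (fun j => ne_top_of_le_ne_top
    (ENNReal.mul_ne_top (by finiteness) hV) (hplane j))
  refine ⟨h1, hBD, h2, ?_⟩
  refine h3.trans ?_
  calc 2 * ∑ j, ∫⁻ x : Fin n → ℝ, maxFun f (ins j 0 x)
      ≤ 2 * ∑ _j : Fin (n + 1), (2 ^ n + C1 * ((n + 1) * (C2 * 2))) * variation f := by
        gcongr with j
        exact hplane j
    _ = _ := by
        rw [Finset.sum_const, Finset.card_univ, Fintype.card_fin, nsmul_eq_mul]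
        push_cast
        ring

end P137
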