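import Mathlib

/-!
P137, a one dimensional lemma for the module UP.
-/

open MeasureTheory Set

namespace P137

/-- integral of a derivative over a symmetric interval type set -/
theorem symm_int {ψ ψ' : ℝ → ℝ} (hψ : ∀ t, HasDerivAt ψ (ψ' t) t) (hc : Continuous ψ')
    (hb : ∀ t, |ψ t| ≤ 1) {R : ℝ} {B : Set ℝ} (hBR : ∀ t ∈ B, |t| ≤ R)
    (hB : ∀ s t, |s| ≤ |t| → t ∈ B → s ∈ B) : ∫ t in B, ψ' t ≤ 2 := by
  rcases B.eq_empty_or_nonempty with h | ⟨t0, ht0⟩
  · rw [h]
    simp
  have hbdd : BddAbove B := ⟨R, fun t ht => (le_abs_self t).trans (hBR t ht)⟩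
  obtain ⟨b, hb'⟩ : ∃ b : ℝ, b = sSup B := ⟨_, rfl⟩
  have hle : ∀ t ∈ B, |t| ≤ b := by
    intro t ht
    rw [hb']
    exact le_csSup hbdd (hB |t| t (by simp) ht)
  have hb0 : 0 ≤ b := (abs_nonneg t0).trans (hle t0 ht0)
  have h1 : Ioo (-b) b ⊆ B := by
    intro t ht
    have h2 : |t| < b := abs_lt.mpr ht
    rw [hb'] at h2
    obtain ⟨s, hs, hst⟩ := exists_lt_of_lt_csSup ⟨t0, ht0⟩ h2
    exact hB t s (hst.le.trans (le_abs_self s)) hs
  have h2 : B ⊆ Icc (-b) b := fun t ht => abs_le.mp (hle t ht)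
  have h3 : B =ᵐ[volume] Ioc (-b) b := by
    have h4 : Ioo (-b) b =ᵐ[volume] Icc (-b) b := Ioo_ae_eq_Icc
    have h5 : Ioo (-b) b =ᵐ[volume] Ioc (-b) b := Ioo_ae_eq_Ioc
    have h6 : B ≤ᵐ[volume] Ioo (-b) b :=
      (LE.le.eventuallyLE h2).trans h4.symm.le
    exact (h6.antisymm (LE.le.eventuallyLE h1)).trans h5
  rw [setIntegral_congr_set h3, ← intervalIntegral.integral_of_le (by linarith),
    intervalIntegral.integral_eq_sub_of_hasDerivAt (fun t _ => hψ t) (hc.intervalIntegrable _ _)]
  have h7 := abs_le.mp (hb b)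
  have h8 := abs_le.mp (hb (-b))
  linarith

/-- second mean value theorem for even functions which are nonincreasing on the half line -/
theorem one_dim {w : ℝ → ℝ} (hw : Measurable w) (h0 : ∀ t, 0 ≤ w t)
    (hm : ∀ s t, |s| ≤ |t| → w t ≤ w s) {ψ ψ' : ℝ → ℝ} (hψ : ∀ t, HasDerivAt ψ (ψ' t) t)
    (hc : Continuous ψ') (hb : ∀ t, |ψ t| ≤ 1) {R : ℝ} (hR : ∀ t, R < |t| → ψ' t = 0) :
    ∫ t, w t * ψ' t ≤ 2 * w 0 := by
  have hsupp : HasCompactSupport ψ' := by
    apply HasCompactSupport.intro (isCompact_Icc (a := -R) (b := R))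
    intro t ht
    apply hR
    by_contra h
    push Not at h
    exact ht (abs_le.mp h)
  have hint : Integrable ψ' := hc.integrable_of_hasCompactSupport hsupp
  have hw0 : ∀ t, w t ≤ w 0 := fun t => hm 0 t (by simp)
  have h1 : ∀ t, ∫ s in Ioc 0 (w 0), (if s < w t then ψ' t else 0) = w t * ψ' t := by
    intro t
    have e1 : (fun s : ℝ => if s < w t then ψ' t else 0) =
        (Iio (w t)).indicator (fun _ => ψ' t) := by
      ext s
      by_cases h : s < w t <;> simp [Set.indicator, h]
    rw [e1, setIntegral_indicator measurableSet_Iio, setIntegral_const]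
    have e2 : Ioc 0 (w 0) ∩ Iio (w t) = Ioo 0 (w t) := by
      ext s
      simp only [mem_inter_iff, mem_Ioc, mem_Iio, mem_Ioo]
      constructor
      · rintro ⟨⟨h, _⟩, h2⟩
        exact ⟨h, h2⟩
      · rintro ⟨h, h2⟩
        exact ⟨⟨h, (h2.trans_le (hw0 t)).le⟩, h2⟩
    rw [e2]
    simp [Measure.real, Real.volume_Ioo, ENNReal.toReal_ofReal (h0 t)]
  have h2 : ∀ s, 0 ≤ s → ∫ t, (if s < w t then ψ' t else 0) ≤ 2 := by
    intro s _
    have e1 : (fun t : ℝ => if s < w t then ψ' t else 0) =
        ({t | s < w t ∧ |t| ≤ R}).indicator ψ' := by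
      ext t
      by_cases h : s < w t
      · by_cases h3 : |t| ≤ R
        · simp [Set.indicator, h, h3]
        · simp only [Set.indicator, h, h3, if_true, mem_ofPred_eq, and_false, if_false]
          exact hR t (by linarith)
      · simp [Set.indicator, h]
    rw [e1, integral_indicator]
    · apply symm_int hψ hc hb (R := R)
      · intro t ht
        exact ht.2
      · intro s' t hst ht
        exact ⟨ht.1.trans_le (hm s' t hst), hst.trans ht.2⟩
    · exact (measurableSet_lt measurable_const hw).inter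
        (measurableSet_le measurable_norm measurable_const)
  have h5 : Integrable (Function.uncurry fun t s : ℝ => if s < w t then ψ' t else 0)
      (volume.prod (volume.restrict (Ioc 0 (w 0)))) := by
    have h3 : Integrable (fun p : ℝ × ℝ => ψ' p.1)
        (volume.prod (volume.restrict (Ioc 0 (w 0)))) := hint.comp_fst _
    refine h3.mono ?_ ?_
    · have h4 : Measurable (fun p : ℝ × ℝ => if p.2 < w p.1 then ψ' p.1 else 0) :=
        Measurable.ite (measurableSet_lt measurable_snd (hw.comp measurable_fst))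
          (hc.measurable.comp measurable_fst) measurable_const
      exact h4.aestronglyMeasurable
    · apply Filter.Eventually.of_forall
      rintro ⟨t, s⟩
      by_cases h : s < w t <;> simp [Function.uncurry, h]
  calc ∫ t, w t * ψ' t = ∫ t, ∫ s in Ioc 0 (w 0), (if s < w t then ψ' t else 0) := by
        simp_rw [h1]
    _ = ∫ s in Ioc 0 (w 0), ∫ t, (if s < w t then ψ' t else 0) := integral_integral_swap h5
    _ ≤ ∫ s in Ioc 0 (w 0), (2 : ℝ) := by
        apply setIntegral_mono_on h5.integral_prod_right (integrable_const _) measurableSet_Ioc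
        intro s hs
        exact h2 s hs.1.le
    _ = 2 * w 0 := by
        rw [setIntegral_const]
        simp [Measure.real, h0 0, mul_comm]

end P137
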