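import Vale.Agent.P137.Fub
import Vale.Agent.P137.WG
import Vale.Agent.P137.OneDim

/-!
P137, module UP.
-/

open MeasureTheory ENNReal Set

namespace P137

theorem up_abs {n : ℕ} (j : Fin (n + 1)) {s t : ℝ} (x : Fin n → ℝ) (h : |s| ≤ |t|) :
    ∀ i, |ins j s x i| ≤ |ins j t x i| := by
  intro i
  rcases Fin.eq_self_or_eq_succAbove j i with rfl | ⟨k, rfl⟩
  · simpa using h
  · simp

theorem up_add {n : ℕ} (j : Fin (n + 1)) (t : ℝ) (x : Fin n → ℝ) :
    ins j t x = ins j 0 x + t • EuclideanSpace.single j (1 : ℝ) := by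
  ext i
  rcases Fin.eq_self_or_eq_succAbove j i with rfl | ⟨k, rfl⟩
  · simp
  · simp [Fin.succAbove_ne]

theorem up_deriv {n : ℕ} (j : Fin (n + 1)) (t : ℝ) (x : Fin n → ℝ) :
    HasDerivAt (fun t : ℝ => ins j t x) (EuclideanSpace.single j (1 : ℝ)) t := by
  have h1 : (fun t : ℝ => ins j t x) =
      fun t : ℝ => ins j 0 x + t • EuclideanSpace.single j (1 : ℝ) := by
    funext t
    exact up_add j t x
  rw [h1]
  simpa using ((hasDerivAt_id t).smul_const (EuclideanSpace.single j (1 : ℝ))).const_add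
    (ins j 0 x)

theorem up_norm {n : ℕ} (j : Fin (n + 1)) (t : ℝ) (x : Fin n → ℝ) : |t| ≤ ‖ins j t x‖ := by
  have h := PiLp.norm_apply_le (ins j t x) j
  simpa using h

theorem up_slab {n : ℕ} {U : E (n + 1) → ℝ≥0∞} (hU : Measurable U) (hB : BD U) (T : ℝ) :
    ∫⁻ x in {x : E (n + 1) | |x 0| ≤ T}, U x ≤
      (∫⁻ x : Fin n → ℝ, U (ins 0 0 x)) * ENNReal.ofReal (2 * T) := by
  have hms : MeasurableSet {x : E (n + 1) | |x 0| ≤ T} :=
    measurableSet_le (by fun_prop) measurable_const
  rw [← lintegral_indicator hms, fub n 0 _ (hU.indicator hms)]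
  rw [← lintegral_mul_const]
  · apply lintegral_mono
    intro x
    have h1 : ∀ t : ℝ, ({x : E (n + 1) | |x 0| ≤ T}.indicator U) (ins 0 t x) ≤
        (Icc (-T) T).indicator (fun _ => U (ins 0 0 x)) t := by
      intro t
      by_cases h : |t| ≤ T
      · have h2 : t ∈ Icc (-T) T := abs_le.mp h
        have h3 : ins 0 t x ∈ {x : E (n + 1) | |x 0| ≤ T} := by simpa using h
        rw [Set.indicator_of_mem h2, Set.indicator_of_mem h3]
        exact hB _ _ (up_abs 0 x (by simp))
      · have h3 : ins 0 t x ∉ {x : E (n + 1) | |x 0| ≤ T} := by simpa using h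
        rw [Set.indicator_of_notMem h3]
        exact zero_le
    refine (lintegral_mono h1).trans ?_
    rw [lintegral_indicator measurableSet_Icc, setLIntegral_const, Real.volume_Icc]
    apply le_of_eq
    congr 2
    ring
  · exact hU.comp (measurable_ins_right 0 0)

theorem up_ae {n : ℕ} {U : E (n + 1) → ℝ≥0∞} (hU : Measurable U) (hB : BD U)
    (h : ∫⁻ x : Fin n → ℝ, U (ins 0 0 x) ≠ ∞) : ∀ᵐ x, U x ≠ ∞ := by
  have h1 : ∀ k : ℕ, ∀ᵐ x, |x (0 : Fin (n + 1))| ≤ (k : ℝ) → U x ≠ ∞ := by
    intro k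
    have hms : MeasurableSet {x : E (n + 1) | |x 0| ≤ (k : ℝ)} :=
      measurableSet_le (by fun_prop) measurable_const
    have h2 : ∫⁻ x in {x : E (n + 1) | |x 0| ≤ (k : ℝ)}, U x ≠ ∞ :=
      ne_top_of_le_ne_top (ENNReal.mul_ne_top h ENNReal.ofReal_ne_top) (up_slab hU hB k)
    have h3 := ae_lt_top hU h2
    rw [ae_restrict_iff' hms] at h3
    filter_upwards [h3] with x hx hxk
    exact (hx hxk).ne
  rw [← ae_all_iff] at h1
  filter_upwards [h1] with x hx
  obtain ⟨k, hk⟩ := exists_nat_ge |x (0 : Fin (n + 1))|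
  exact hx k hk

theorem up_loc {n : ℕ} {U : E (n + 1) → ℝ≥0∞} (hU : Measurable U) (hB : BD U)
    (h : ∫⁻ x : Fin n → ℝ, U (ins 0 0 x) ≠ ∞) : LocallyIntegrable (fun x => (U x).toReal) := by
  intro x
  refine ⟨{y : E (n + 1) | |y 0| ≤ |x 0| + 1}, ?_, ?_⟩
  · have hc : Continuous (fun y : E (n + 1) => |y 0|) := by fun_prop
    have := (isOpen_lt hc (continuous_const (y := |x 0| + 1))).mem_nhds (x := x) (by simp)
    filter_upwards [this] with y hy
    exact le_of_lt hy
  · apply integrable_toReal_of_lintegral_ne_top hU.aemeasurable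
    exact ne_top_of_le_ne_top (ENNReal.mul_ne_top h ENNReal.ofReal_ne_top) (up_slab hU hB _)

/-- the contribution of one coordinate -/
theorem up_coord {n : ℕ} {U : E (n + 1) → ℝ≥0∞} (hU : Measurable U) (hB : BD U)
    (hloc : LocallyIntegrable (fun x => (U x).toReal)) (j : Fin (n + 1))
    (h : ∫⁻ x : Fin n → ℝ, U (ins j 0 x) ≠ ∞) {ψ : E (n + 1) → ℝ}
    (h1 : ContDiff ℝ (⊤ : ℕ∞) ψ) (h2 : HasCompactSupport ψ) (h3 : ∀ x, |ψ x| ≤ 1) :
    Integrable (fun x => (U x).toReal * fderiv ℝ ψ x (EuclideanSpace.single j 1)) ∧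
    ∫ x, (U x).toReal * fderiv ℝ ψ x (EuclideanSpace.single j 1) ≤
      2 * (∫⁻ x : Fin n → ℝ, U (ins j 0 x)).toReal := by
  have hc := wg_cont h1 (EuclideanSpace.single j (1 : ℝ))
  have hs := wg_supp h2 (EuclideanSpace.single j (1 : ℝ))
  have hint : Integrable (fun x => (U x).toReal * fderiv ℝ ψ x (EuclideanSpace.single j 1)) := by
    have h4 := hloc.integrable_smul_left_of_hasCompactSupport hc hs
    refine h4.congr (Filter.Eventually.of_forall fun x => ?_)
    simp [mul_comm]
  refine ⟨hint, ?_⟩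
  rw [integral_fub j _ hint]
  have hmU : Measurable (fun x : Fin n → ℝ => U (ins j 0 x)) :=
    hU.comp (measurable_ins_right j 0)
  have h5 : ∀ᵐ x : Fin n → ℝ, U (ins j 0 x) < ∞ := ae_lt_top hmU h
  have h6 : Integrable (fun x : Fin n → ℝ => (U (ins j 0 x)).toReal) :=
    integrable_toReal_of_lintegral_ne_top hmU.aemeasurable h
  have h7 : ∫ x : Fin n → ℝ, (U (ins j 0 x)).toReal = (∫⁻ x : Fin n → ℝ, U (ins j 0 x)).toReal :=
    integral_toReal hmU.aemeasurable h5
  rw [← h7, ← integral_const_mul]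
  apply integral_mono_ae
  · have h8 := ((measurePreserving_insEquiv j).integrable_comp_emb
      (insEquiv j).measurableEmbedding).mpr hint
    exact Integrable.integral_prod_right (f := fun p : ℝ × (Fin n → ℝ) =>
      (U (insEquiv j p)).toReal * fderiv ℝ ψ (insEquiv j p) (EuclideanSpace.single j 1)) h8
  · exact h6.const_mul 2
  · filter_upwards [h5] with x hx
    obtain ⟨R, hR⟩ := hs.isCompact.isBounded.subset_closedBall (0 : E (n + 1))
    have hfin : ∀ t : ℝ, U (ins j t x) ≠ ∞ := fun t =>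
      ne_top_of_le_ne_top hx.ne (hB _ _ (up_abs j x (by simp)))
    apply one_dim (w := fun t => (U (ins j t x)).toReal) (ψ := fun t => ψ (ins j t x))
      (ψ' := fun t => fderiv ℝ ψ (ins j t x) (EuclideanSpace.single j 1)) (R := R)
    · exact (hU.comp (measurable_ins_left j x)).ennreal_toReal
    · intro t
      exact ENNReal.toReal_nonneg
    · intro s t hst
      exact ENNReal.toReal_mono (hfin s) (hB _ _ (up_abs j x hst))
    · intro t
      exact ((h1.differentiable (by simp)) (ins j t x)).hasFDerivAt.comp_hasDerivAt t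
        (up_deriv j t x)
    · apply hc.comp
      exact continuous_iff_continuousAt.mpr fun t => (up_deriv j t x).continuousAt
    · intro t
      exact h3 _
    · intro t ht
      by_contra hne
      have h9 : ins j t x ∈ tsupport
          (fun x => fderiv ℝ ψ x (EuclideanSpace.single j (1 : ℝ))) :=
        subset_tsupport _ hne
      have h10 := hR h9
      rw [mem_closedBall_zero_iff] at h10
      have := up_norm j t x
      linarith

theorem up : StmtUp := by
  intro n U hU hB h
  have hloc := up_loc hU hB (h 0)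
  refine ⟨up_ae hU hB (h 0), hloc, ?_⟩
  unfold variation
  refine iSup_le fun φ => iSup_le fun h1 => iSup_le fun h2 => iSup_le fun h3 => ?_
  have hco := fun j => up_coord hU hB hloc j (h j) (wg_comp_smooth h1 j) (wg_comp_supp h2 j)
    (fun x => (PiLp.norm_apply_le (φ x) j).trans (h3 x))
  have e1 : ∀ x, (U x).toReal * divergence φ x =
      ∑ i, (U x).toReal * fderiv ℝ (fun x => φ x i) x (EuclideanSpace.single i 1) := by
    intro x
    unfold divergence
    rw [Finset.mul_sum]
    exact Finset.sum_congr rfl fun i _ => by rw [wg_fderiv h1]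
  simp_rw [e1]
  rw [integral_finsetSum _ fun i _ => (hco i).1]
  refine (ENNReal.ofReal_le_ofReal (Finset.sum_le_sum fun i _ => (hco i).2)).trans ?_
  rw [← Finset.mul_sum, ENNReal.ofReal_mul (by norm_num), ENNReal.ofReal_sum_of_nonneg]
  · apply le_of_eq
    congr 1
    · simp
    · exact Finset.sum_congr rfl fun i _ => ENNReal.ofReal_toReal (h i)
  · intro i _
    exact ENNReal.toReal_nonneg

end P137
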