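import Mathlib

/-!
P137, centered Hardy-Littlewood maximal function of block-decreasing functions, any dimension.
Definitions and module statements. See notes/P137_plan.md.
-/

open MeasureTheory ENNReal Set

namespace P137

/-- Euclidean space. -/
abbrev E (n : ℕ) := EuclideanSpace ℝ (Fin n)

/-- Block-decreasing: invariant under coordinate sign changes and nonincreasing in each positive
coordinate. -/
def BlockDecreasing {n : ℕ} (f : E n → ℝ) : Prop :=
  ∀ x y : E n, (∀ i, |x i| ≤ |y i|) → f y ≤ f x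

/-- The centered Hardy-Littlewood maximal function, with values in `[0, ∞]`. -/
noncomputable def maxFun {n : ℕ} (f : E n → ℝ) (x : E n) : ℝ≥0∞ :=
  ⨆ (r : ℝ) (_ : 0 < r), (∫⁻ y in Metric.ball x r, ‖f y‖ₑ) / volume (Metric.ball x r)

/-- The centered Hardy-Littlewood maximal function as a real function. -/
noncomputable def M {n : ℕ} (f : E n → ℝ) (x : E n) : ℝ := (maxFun f x).toReal

/-- Divergence of a vector field. -/
noncomputable def divergence {n : ℕ} (φ : E n → E n) (x : E n) : ℝ :=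
  ∑ i, fderiv ℝ φ x (EuclideanSpace.single i 1) i

/-- Total variation of (the distributional gradient of) a locally integrable function. -/
noncomputable def variation {n : ℕ} (u : E n → ℝ) : ℝ≥0∞ :=
  ⨆ (φ : E n → E n) (_ : ContDiff ℝ (⊤ : ℕ∞) φ) (_ : HasCompactSupport φ) (_ : ∀ x, ‖φ x‖ ≤ 1),
    ENNReal.ofReal (∫ x, u x * divergence φ x)

/-- `g` is the weak gradient of `f`. -/
def IsWeakGradient {n : ℕ} (f : E n → ℝ) (g : E n → E n) : Prop :=
  ∀ φ : E n → ℝ, ContDiff ℝ (⊤ : ℕ∞) φ → HasCompactSupport φ → ∀ i,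
    ∫ x, f x * fderiv ℝ φ x (EuclideanSpace.single i 1) = - ∫ x, g x i * φ x

/-- The point of `E (n+1)` with `j`-th coordinate `t` and the other coordinates `x`. -/
noncomputable def ins {n : ℕ} (j : Fin (n + 1)) (t : ℝ) (x : Fin n → ℝ) : E (n + 1) :=
  WithLp.toLp 2 (Fin.insertNth (α := fun _ => ℝ) j t x)

/-- Boundary value of `F` on the hyperplane `x_j = 0`. -/
noncomputable def edge {n : ℕ} (F : E (n + 1) → ℝ≥0∞) (j : Fin (n + 1)) (x : Fin n → ℝ) : ℝ≥0∞ :=
  ⨆ k : ℕ, F (ins j (1 / ((k : ℝ) + 1)) x)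

/-- Block-decreasing for `[0, ∞]`-valued functions. -/
def BD {n : ℕ} (F : E n → ℝ≥0∞) : Prop := ∀ x y : E n, (∀ i, |x i| ≤ |y i|) → F y ≤ F x

/-- The auxiliary singular integral over scales. -/
noncomputable def H {n : ℕ} (F : E (n + 1) → ℝ≥0∞) (i : Fin (n + 1)) (x : E (n + 1)) : ℝ≥0∞ :=
  ∫⁻ s in Ioi (0 : ℝ), (if |x i| ≤ 4 * s then 1 else 0) *
    (ENNReal.ofReal (s ^ (n + 2)))⁻¹ * ∫⁻ y in {y : E (n + 1) | ∀ l, |y l - x l| ≤ s}, F y

/-! ## Module statements -/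

/-- FUB: Fubini for the `j`-th coordinate. -/
def StmtFub : Prop := ∀ (n : ℕ) (j : Fin (n + 1)) (F : E (n + 1) → ℝ≥0∞), Measurable F →
  ∫⁻ x, F x = ∫⁻ x', ∫⁻ t, F (ins j t x')

/-- BALL: averages of block-decreasing functions over balls are block-decreasing. -/
def StmtBall : Prop := ∀ (n : ℕ) (F : E n → ℝ≥0∞), Measurable F → BD F → ∀ (r : ℝ) (x y : E n),
  (∀ i, |x i| ≤ |y i|) → ∫⁻ z in Metric.ball y r, F z ≤ ∫⁻ z in Metric.ball x r, F z

/-- MEAS: the maximal function is measurable. -/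
def StmtMeas : Prop := ∀ (n : ℕ) (f : E n → ℝ), Measurable f → Measurable (maxFun f)

/-- PTW: pointwise bound on the hyperplane `x_j = 0` (all other coordinates nonzero). -/
def StmtPtw : Prop := ∀ n : ℕ, ∃ C : ℝ≥0∞, C ≠ ∞ ∧ ∀ (F : E (n + 1) → ℝ≥0∞), Measurable F → BD F →
  ∀ (j : Fin (n + 1)) (x : Fin n → ℝ), (∀ i, x i ≠ 0) → ∀ r : ℝ, 0 < r →
    (∫⁻ y in Metric.ball (ins j 0 x) r, F y) / volume (Metric.ball (ins j 0 x) r) ≤
      edge F j (fun i => x i / 2) + C * ∑ i ∈ Finset.univ.erase j, H F i (ins j 0 x)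

/-- HINT: integral of `H` over the hyperplane `x_j = 0`. -/
def StmtHint : Prop := ∀ n : ℕ, ∃ C : ℝ≥0∞, C ≠ ∞ ∧ ∀ (F : E (n + 1) → ℝ≥0∞), Measurable F → BD F →
  ∀ (i j : Fin (n + 1)), i ≠ j →
    ∫⁻ x : Fin n → ℝ, H F i (ins j 0 x) ≤
      C * ((∫⁻ x : Fin n → ℝ, edge F i x) + ∫⁻ x : Fin n → ℝ, edge F j x)

/-- LOW: the variation of a block-decreasing function controls its hyperplane integrals. -/
def StmtLow : Prop := ∀ (n : ℕ) (f : E (n + 1) → ℝ), Measurable f → BlockDecreasing f →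
  (∀ x, 0 ≤ f x) → Integrable f → ∀ j : Fin (n + 1),
    2 * ∫⁻ x : Fin n → ℝ, edge (fun y => ENNReal.ofReal (f y)) j x ≤ variation f

/-- UP: the variation of a block-decreasing function is controlled by hyperplane integrals. -/
def StmtUp : Prop := ∀ (n : ℕ) (U : E (n + 1) → ℝ≥0∞), Measurable U → BD U →
  (∀ j : Fin (n + 1), ∫⁻ x : Fin n → ℝ, U (ins j 0 x) ≠ ∞) →
    (∀ᵐ x, U x ≠ ∞) ∧ LocallyIntegrable (fun x => (U x).toReal) ∧
    variation (fun x => (U x).toReal) ≤ 2 * ∑ j, ∫⁻ x : Fin n → ℝ, U (ins j 0 x)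

/-- WG: the variation is at most the integral of the norm of a weak gradient. -/
def StmtWG : Prop := ∀ (n : ℕ) (f : E n → ℝ) (g : E n → E n), Integrable f → Integrable g →
  IsWeakGradient f g → variation f ≤ ∫⁻ x, ‖g x‖ₑ

/-- NN: integrable block-decreasing functions are nonnegative. -/
def StmtNN : Prop := ∀ (n : ℕ) (f : E (n + 1) → ℝ), BlockDecreasing f → Integrable f →
  ∀ x, 0 ≤ f x

/-- MAIN. -/
def StmtMain : Prop := ∀ n : ℕ, ∃ C : ℝ≥0∞, C ≠ ∞ ∧ ∀ f : E (n + 1) → ℝ, Measurable f →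
  BlockDecreasing f → Integrable f → variation f ≠ ∞ →
    (∀ᵐ x, maxFun f x ≠ ∞) ∧ BD (maxFun f) ∧ LocallyIntegrable (M f) ∧
      variation (M f) ≤ C * variation f

end P137
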