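import Vale.Agent.P137.Defs

/-! P137: Fubini in one coordinate. -/

open MeasureTheory ENNReal Set

namespace P137

@[simp] lemma ins_same {n : ℕ} (j : Fin (n + 1)) (t : ℝ) (x : Fin n → ℝ) : ins j t x j = t := by
  simp [ins]

@[simp] lemma ins_succAbove {n : ℕ} (j : Fin (n + 1)) (t : ℝ) (x : Fin n → ℝ) (i : Fin n) :
    ins j t x (j.succAbove i) = x i := by
  simp [ins]

/-- The measurable equivalence behind `ins`. -/
noncomputable def insEquiv {n : ℕ} (j : Fin (n + 1)) : ℝ × (Fin n → ℝ) ≃ᵐ E (n + 1) :=
  (MeasurableEquiv.piFinSuccAbove (fun _ => ℝ) j).symm.trans (MeasurableEquiv.toLp 2 _)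

lemma insEquiv_apply {n : ℕ} (j : Fin (n + 1)) (p : ℝ × (Fin n → ℝ)) :
    insEquiv j p = ins j p.1 p.2 := rfl

lemma measurePreserving_insEquiv {n : ℕ} (j : Fin (n + 1)) :
    MeasurePreserving (insEquiv j) (volume : Measure (ℝ × (Fin n → ℝ))) volume := by
  have h1 := (volume_preserving_piFinSuccAbove (fun _ : Fin (n + 1) => ℝ) j).symm
  have h2 := (EuclideanSpace.volume_preserving_symm_measurableEquiv_toLp (Fin (n + 1))).symm
  exact h2.comp h1

lemma measurable_ins {n : ℕ} (j : Fin (n + 1)) :
    Measurable (fun p : ℝ × (Fin n → ℝ) => ins j p.1 p.2) := (insEquiv j).measurable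

lemma measurable_ins_left {n : ℕ} (j : Fin (n + 1)) (x : Fin n → ℝ) :
    Measurable (fun t : ℝ => ins j t x) :=
  (measurable_ins j).comp (measurable_id.prodMk measurable_const)

lemma measurable_ins_right {n : ℕ} (j : Fin (n + 1)) (t : ℝ) :
    Measurable (fun x : Fin n → ℝ => ins j t x) :=
  (measurable_ins j).comp (measurable_const.prodMk measurable_id)

theorem fub : StmtFub := by
  intro n j F hF
  rw [← (measurePreserving_insEquiv j).lintegral_comp hF]
  simp_rw [insEquiv_apply]
  rw [show (volume : Measure (ℝ × (Fin n → ℝ))) = (volume : Measure ℝ).prod volume from rfl]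
  exact lintegral_prod_symm _ (hF.comp (measurable_ins j)).aemeasurable

/-- Fubini for real-valued integrals. -/
theorem integral_fub {n : ℕ} (j : Fin (n + 1)) (f : E (n + 1) → ℝ) (hf : Integrable f) :
    ∫ x, f x = ∫ x', ∫ t, f (ins j t x') := by
  rw [← (measurePreserving_insEquiv j).integral_comp (insEquiv j).measurableEmbedding]
  simp_rw [insEquiv_apply]
  rw [show (volume : Measure (ℝ × (Fin n → ℝ))) = (volume : Measure ℝ).prod volume from rfl]
  apply integral_prod_symm
  exact ((measurePreserving_insEquiv j).integrable_comp_emb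
    (insEquiv j).measurableEmbedding).mpr hf

end P137
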