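import Vale.Agent.P137.Ptw

/-! P137: integral of the auxiliary function over a coordinate hyperplane. -/

open MeasureTheory ENNReal Set

namespace P137

/-- `∫_{s ≥ m} s^{-2} ds ≤ 1/m`. -/
lemma lintegral_tail {m : ℝ} (hm : 0 < m) :
    ∫⁻ s in Ioi (0 : ℝ), (if m ≤ s then (ENNReal.ofReal (s ^ 2))⁻¹ else 0) ≤
      (ENNReal.ofReal m)⁻¹ := by
  have h1 : ∫⁻ s in Ioi (0 : ℝ), (if m ≤ s then (ENNReal.ofReal (s ^ 2))⁻¹ else 0) ≤
      ∫⁻ s in Ici m, (ENNReal.ofReal (s ^ 2))⁻¹ := by
    calc ∫⁻ s in Ioi (0 : ℝ), (if m ≤ s then (ENNReal.ofReal (s ^ 2))⁻¹ else 0)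
        ≤ ∫⁻ s, (if m ≤ s then (ENNReal.ofReal (s ^ 2))⁻¹ else 0) := setLIntegral_le_lintegral _ _
      _ = ∫⁻ s, (Ici m).indicator (fun s => (ENNReal.ofReal (s ^ 2))⁻¹) s := by
          congr 1
      _ = _ := lintegral_indicator measurableSet_Ici _
  refine h1.trans ?_
  rw [← restrict_Ioi_eq_restrict_Ici]
  have h2 : ∫⁻ s in Ioi m, (ENNReal.ofReal (s ^ 2))⁻¹ =
      ∫⁻ s in Ioi m, ENNReal.ofReal (s ^ (-2 : ℝ)) := by
    apply setLIntegral_congr_fun measurableSet_Ioi
    intro s hs
    have hs0 : (0 : ℝ) < s := hm.trans hs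
    show (ENNReal.ofReal (s ^ 2))⁻¹ = ENNReal.ofReal (s ^ (-2 : ℝ))
    rw [← ENNReal.ofReal_inv_of_pos (by positivity), Real.rpow_neg hs0.le]
    norm_num
  rw [h2, ← ofReal_integral_eq_lintegral_ofReal (integrableOn_Ioi_rpow_of_lt (by norm_num) hm),
    integral_Ioi_rpow_of_lt (by norm_num) hm, ← ENNReal.ofReal_inv_of_pos hm]
  · apply ENNReal.ofReal_le_ofReal
    norm_num
    rw [Real.rpow_neg_one]
  · rw [Filter.EventuallyLE, ae_restrict_iff' measurableSet_Ioi]
    filter_upwards with s hs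
    exact Real.rpow_nonneg (hm.le.trans (le_of_lt hs)) _

lemma lintegral_abs_le (a : ℝ) (c : ℝ≥0∞) :
    ∫⁻ t : ℝ, (if |t| ≤ |a| then c * (ENNReal.ofReal |a|)⁻¹ else 0) ≤ 2 * c := by
  have h : (fun t : ℝ => if |t| ≤ |a| then c * (ENNReal.ofReal |a|)⁻¹ else 0) =
      (Icc (-|a|) |a|).indicator (fun _ => c * (ENNReal.ofReal |a|)⁻¹) := by
    ext t
    simp only [indicator, mem_Icc, ← abs_le]
  rw [h, lintegral_indicator measurableSet_Icc, setLIntegral_const, Real.volume_Icc]
  rcases eq_or_ne a 0 with rfl | ha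
  · simp
  · have ha' : 0 < |a| := abs_pos.mpr ha
    have : |a| - -|a| = 2 * |a| := by ring
    rw [this, ENNReal.ofReal_mul (by norm_num), mul_assoc]
    have h3 : (ENNReal.ofReal |a|)⁻¹ * (ENNReal.ofReal 2 * ENNReal.ofReal |a|) = 2 := by
      rw [mul_comm (ENNReal.ofReal 2), ← mul_assoc, ENNReal.inv_mul_cancel, one_mul]
      · norm_num
      · simpa using ha
      · exact ENNReal.ofReal_ne_top
    rw [h3, mul_comm]

lemma ne_zero_ae_real : ∀ᵐ t : ℝ, t ≠ 0 := by
  rw [ae_iff]
  simp

lemma part_le {n : ℕ} {F : E (n + 1) → ℝ≥0∞} (hFm : Measurable F) (hF : BD F)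
    {i j : Fin (n + 1)} (hij : i ≠ j) :
    ∫⁻ y : E (n + 1), (if |y j| ≤ |y i| then F y * (ENNReal.ofReal |y i|)⁻¹ else 0) ≤
      2 * ∫⁻ x : Fin n → ℝ, edge F j x := by
  obtain ⟨k, rfl⟩ := Fin.exists_succAbove_eq hij
  have hm : Measurable (fun y : E (n + 1) =>
      if |y j| ≤ |y (j.succAbove k)| then F y * (ENNReal.ofReal |y (j.succAbove k)|)⁻¹ else 0) := by
    refine Measurable.ite ?_ ?_ measurable_const
    · exact measurableSet_le (by fun_prop) (by fun_prop)
    · exact hFm.mul (by fun_prop)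
  rw [fub n j _ hm, ← lintegral_const_mul' _ _ (by norm_num)]
  apply lintegral_mono
  intro x
  refine le_trans ?_ (lintegral_abs_le (x k) (edge F j x))
  apply lintegral_mono_ae
  filter_upwards [ne_zero_ae_real] with t ht
  simp only [ins_same, ins_succAbove]
  split_ifs with h
  · apply mul_le_mul_left
    exact le_edge hF j x _ (by simpa using ht) (fun i => by simp)
  · exact le_rfl

/-- The kernel. -/
noncomputable def Ker {n : ℕ} (F : E (n + 1) → ℝ≥0∞) (j : Fin (n + 1)) (k : Fin n)
    (s : ℝ) (y : E (n + 1)) : ℝ≥0∞ :=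
  if |y j| ≤ s ∧ |y (j.succAbove k)| ≤ 5 * s then (ENNReal.ofReal (s ^ (n + 2)))⁻¹ * F y else 0

/-- The indicator of the cube. -/
noncomputable def Ind {n : ℕ} (j : Fin (n + 1)) (s : ℝ) (y : E (n + 1)) (x : Fin n → ℝ) : ℝ≥0∞ :=
  if ∀ l : Fin n, |y (j.succAbove l) - x l| ≤ s then 1 else 0

lemma measurable_Ker {n : ℕ} {F : E (n + 1) → ℝ≥0∞} (hFm : Measurable F) (j : Fin (n + 1))
    (k : Fin n) : Measurable (fun p : ℝ × E (n + 1) => Ker F j k p.1 p.2) := by
  unfold Ker
  refine Measurable.ite ?_ ?_ measurable_const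
  · have h1 : MeasurableSet {p : ℝ × E (n + 1) | |p.2 j| ≤ p.1} :=
      measurableSet_le (by fun_prop) (by fun_prop)
    have h2 : MeasurableSet {p : ℝ × E (n + 1) | |p.2 (j.succAbove k)| ≤ 5 * p.1} :=
      measurableSet_le (by fun_prop) (by fun_prop)
    exact h1.inter h2
  · exact Measurable.mul (by fun_prop) (hFm.comp measurable_snd)

lemma measurable_Ind {n : ℕ} (j : Fin (n + 1)) :
    Measurable (fun p : (ℝ × E (n + 1)) × (Fin n → ℝ) => Ind j p.1.1 p.1.2 p.2) := by
  unfold Ind
  refine Measurable.ite ?_ measurable_const measurable_const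
  have : {p : (ℝ × E (n + 1)) × (Fin n → ℝ) | ∀ l : Fin n, |p.1.2 (j.succAbove l) - p.2 l| ≤ p.1.1} =
      ⋂ l : Fin n, {p : (ℝ × E (n + 1)) × (Fin n → ℝ) | |p.1.2 (j.succAbove l) - p.2 l| ≤ p.1.1} := by
    ext p
    simp
  rw [this]
  exact MeasurableSet.iInter fun l => measurableSet_le (by fun_prop) (by fun_prop)

lemma H_le {n : ℕ} {F : E (n + 1) → ℝ≥0∞} (hFm : Measurable F) (j : Fin (n + 1)) (k : Fin n)
    (x : Fin n → ℝ) :
    H F (j.succAbove k) (ins j 0 x) ≤
      ∫⁻ s in Ioi (0 : ℝ), ∫⁻ y : E (n + 1), Ker F j k s y * Ind j s y x := by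
  unfold H
  apply lintegral_mono
  intro s
  have hS : MeasurableSet {y : E (n + 1) | ∀ l, |y l - (ins j 0 x) l| ≤ s} := by
    have : {y : E (n + 1) | ∀ l, |y l - (ins j 0 x) l| ≤ s} =
        ⋂ l, {y : E (n + 1) | |y l - (ins j 0 x) l| ≤ s} := by
      ext p
      simp
    rw [this]
    exact MeasurableSet.iInter fun l => measurableSet_le (by fun_prop) (by fun_prop)
  show (if |(ins j 0 x) (j.succAbove k)| ≤ 4 * s then 1 else 0) *
    (ENNReal.ofReal (s ^ (n + 2)))⁻¹ *
      ∫⁻ y in {y : E (n + 1) | ∀ l, |y l - (ins j 0 x) l| ≤ s}, F y ≤ _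
  rw [← lintegral_indicator hS]
  by_cases h4 : |(ins j 0 x) (j.succAbove k)| ≤ 4 * s
  · rw [if_pos h4, one_mul]
    have hmeas : Measurable
        ({y : E (n + 1) | ∀ l, |y l - (ins j 0 x) l| ≤ s}.indicator F) := hFm.indicator hS
    rw [← lintegral_const_mul _ hmeas]
    apply lintegral_mono
    intro y
    by_cases hy : y ∈ {y : E (n + 1) | ∀ l, |y l - (ins j 0 x) l| ≤ s}
    · have h5 := hy j
      rw [ins_same, sub_zero] at h5
      have h6 : ∀ l : Fin n, |y (j.succAbove l) - x l| ≤ s := by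
        intro l
        have := hy (j.succAbove l)
        rwa [ins_succAbove] at this
      rw [ins_succAbove] at h4
      have h7 : |y (j.succAbove k)| ≤ 5 * s := by
        have h8 := h6 k
        have h9 := abs_sub_abs_le_abs_sub (y (j.succAbove k)) (x k)
        linarith
      show (ENNReal.ofReal (s ^ (n + 2)))⁻¹ * _ ≤ Ker F j k s y * Ind j s y x
      rw [indicator_of_mem hy, Ker, Ind, if_pos ⟨h5, h7⟩, if_pos h6, mul_one]
    · show (ENNReal.ofReal (s ^ (n + 2)))⁻¹ * _ ≤ Ker F j k s y * Ind j s y x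
      rw [indicator_of_notMem hy, mul_zero]
      exact zero_le
  · rw [if_neg h4]
    simp

lemma lintegral_Ind {n : ℕ} (j : Fin (n + 1)) {s : ℝ} (hs : 0 < s) (y : E (n + 1)) :
    ∫⁻ x : Fin n → ℝ, Ind j s y x = ENNReal.ofReal ((2 * s) ^ n) := by
  have h : (fun x : Fin n → ℝ => Ind j s y x) =
      (Metric.closedBall (fun l => y (j.succAbove l)) s).indicator (fun _ => 1) := by
    ext x
    classical
    unfold Ind
    have : (∀ l : Fin n, |y (j.succAbove l) - x l| ≤ s) ↔
        x ∈ Metric.closedBall (fun l => y (j.succAbove l)) s := by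
      rw [Metric.mem_closedBall, dist_comm, dist_pi_le_iff hs.le]
      simp [Real.dist_eq]
    by_cases hx : x ∈ Metric.closedBall (fun l => y (j.succAbove l)) s
    · rw [indicator_of_mem hx, if_pos (this.mpr hx)]
    · rw [indicator_of_notMem hx, if_neg (fun h => hx (this.mp h))]
  rw [h, lintegral_indicator Metric.isClosed_closedBall.measurableSet, setLIntegral_const, one_mul,
    Real.volume_pi_closedBall _ hs.le, Fintype.card_fin]

theorem hint : StmtHint := by
  intro n
  refine ⟨ENNReal.ofReal (2 ^ n) * 5 * 2, by finiteness, ?_⟩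
  intro F hFm hF i j hij
  obtain ⟨k, rfl⟩ := Fin.exists_succAbove_eq hij
  have hK := measurable_Ker hFm j k
  have hI := measurable_Ind (n := n) j
  have hG : Measurable (fun p : (ℝ × E (n + 1)) × (Fin n → ℝ) =>
      Ker F j k p.1.1 p.1.2 * Ind j p.1.1 p.1.2 p.2) := (hK.comp measurable_fst).mul hI
  calc ∫⁻ x : Fin n → ℝ, H F (j.succAbove k) (ins j 0 x)
      ≤ ∫⁻ x : Fin n → ℝ, ∫⁻ s in Ioi (0 : ℝ), ∫⁻ y : E (n + 1), Ker F j k s y * Ind j s y x :=
        lintegral_mono fun x => H_le hFm j k x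
    _ = ∫⁻ s in Ioi (0 : ℝ), ∫⁻ x : Fin n → ℝ, ∫⁻ y : E (n + 1), Ker F j k s y * Ind j s y x := by
        apply lintegral_lintegral_swap
        apply Measurable.aemeasurable
        exact Measurable.lintegral_prod_right' (f := fun q : ((Fin n → ℝ) × ℝ) × E (n + 1) =>
          Ker F j k q.1.2 q.2 * Ind j q.1.2 q.2 q.1.1)
          (hG.comp (((measurable_fst.snd).prodMk measurable_snd).prodMk measurable_fst.fst))
    _ = ∫⁻ s in Ioi (0 : ℝ), ∫⁻ y : E (n + 1), Ker F j k s y * ENNReal.ofReal ((2 * s) ^ n) := by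
        apply setLIntegral_congr_fun measurableSet_Ioi
        intro s hs
        show ∫⁻ x : Fin n → ℝ, ∫⁻ y : E (n + 1), Ker F j k s y * Ind j s y x = _
        rw [lintegral_lintegral_swap]
        · apply lintegral_congr
          intro y
          rw [lintegral_const_mul]
          · rw [lintegral_Ind j hs]
          · exact hI.comp ((measurable_const (a := (s, y))).prodMk measurable_id)
        · apply Measurable.aemeasurable
          exact hG.comp ((measurable_const.prodMk measurable_snd).prodMk measurable_fst)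
    _ = ∫⁻ y : E (n + 1), ∫⁻ s in Ioi (0 : ℝ), Ker F j k s y * ENNReal.ofReal ((2 * s) ^ n) := by
        apply lintegral_lintegral_swap
        apply Measurable.aemeasurable
        exact hK.mul (by fun_prop)
    _ ≤ ∫⁻ y : E (n + 1), ENNReal.ofReal (2 ^ n) * 5 *
          ((if |y j| ≤ |y (j.succAbove k)| then F y * (ENNReal.ofReal |y (j.succAbove k)|)⁻¹ else 0) +
          (if |y (j.succAbove k)| ≤ |y j| then F y * (ENNReal.ofReal |y j|)⁻¹ else 0)) := by
        apply lintegral_mono_ae
        filter_upwards [ae_coord_ne_zero j] with y hy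
        have hyj : 0 < |y j| := abs_pos.mpr hy
        set m : ℝ := max |y j| (|y (j.succAbove k)| / 5) with hm
        have hm0 : 0 < m := lt_of_lt_of_le hyj (le_max_left _ _)
        have h1 : ∀ s ∈ Ioi (0 : ℝ), Ker F j k s y * ENNReal.ofReal ((2 * s) ^ n) =
            ENNReal.ofReal (2 ^ n) * F y * (if m ≤ s then (ENNReal.ofReal (s ^ 2))⁻¹ else 0) := by
          intro s hs
          have hs0 : (0 : ℝ) < s := hs
          have hiff : (|y j| ≤ s ∧ |y (j.succAbove k)| ≤ 5 * s) ↔ m ≤ s := by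
            rw [hm, max_le_iff, div_le_iff₀ (by norm_num : (0 : ℝ) < 5), mul_comm s 5]
          unfold Ker
          by_cases hms : m ≤ s
          · rw [if_pos (hiff.mpr hms), if_pos hms, ← ENNReal.ofReal_inv_of_pos (by positivity),
              ← ENNReal.ofReal_inv_of_pos (by positivity)]
            have : (s ^ (n + 2))⁻¹ * (2 * s) ^ n = 2 ^ n * (s ^ 2)⁻¹ := by
              rw [mul_pow]
              field_simp
              ring
            calc ENNReal.ofReal (s ^ (n + 2))⁻¹ * F y * ENNReal.ofReal ((2 * s) ^ n)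
                = ENNReal.ofReal ((s ^ (n + 2))⁻¹ * (2 * s) ^ n) * F y := by
                  rw [ENNReal.ofReal_mul (by positivity)]; ring
              _ = _ := by
                  rw [this, ENNReal.ofReal_mul (by positivity)]; ring
          · rw [if_neg (fun h => hms (hiff.mp h)), if_neg hms, zero_mul, mul_zero]
        rw [setLIntegral_congr_fun measurableSet_Ioi h1, lintegral_const_mul'' _ (by
          apply Measurable.aemeasurable
          exact Measurable.ite (measurableSet_le measurable_const measurable_id) (by fun_prop)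
            measurable_const)]
        refine le_trans (mul_le_mul_right (lintegral_tail hm0) _) ?_
        rw [mul_assoc, mul_assoc (ENNReal.ofReal (2 ^ n)) 5]
        apply mul_le_mul_right
        rcases le_total |y j| |y (j.succAbove k)| with h | h
        · rw [if_pos h]
          refine le_trans ?_ (mul_le_mul_right (le_add_right le_rfl) _)
          rw [mul_comm 5, mul_assoc]
          apply mul_le_mul_right
          have h2 : 0 < |y (j.succAbove k)| := lt_of_lt_of_le hyj h
          rw [← ENNReal.ofReal_inv_of_pos hm0, ← ENNReal.ofReal_inv_of_pos h2,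
            show (5 : ℝ≥0∞) = ENNReal.ofReal 5 by simp, ← ENNReal.ofReal_mul (by positivity)]
          apply ENNReal.ofReal_le_ofReal
          rw [inv_le_comm₀ hm0 (by positivity), mul_inv, inv_inv]
          refine le_trans (le_of_eq ?_) (le_max_right _ _)
          ring
        · rw [if_pos h]
          refine le_trans ?_ (mul_le_mul_right (le_add_left le_rfl) _)
          rw [mul_comm 5, mul_assoc]
          apply mul_le_mul_right
          refine le_trans (ENNReal.inv_le_inv.mpr (ENNReal.ofReal_le_ofReal (le_max_left _ _))) ?_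
          exact le_mul_of_one_le_right' (by norm_num)
    _ = ENNReal.ofReal (2 ^ n) * 5 * ((∫⁻ y : E (n + 1),
          (if |y j| ≤ |y (j.succAbove k)| then F y * (ENNReal.ofReal |y (j.succAbove k)|)⁻¹ else 0)) +
          ∫⁻ y : E (n + 1),
          (if |y (j.succAbove k)| ≤ |y j| then F y * (ENNReal.ofReal |y j|)⁻¹ else 0)) := by
        rw [lintegral_const_mul' _ _ (by finiteness), lintegral_add_left]
        refine Measurable.ite ?_ ?_ measurable_const
        · exact measurableSet_le (by fun_prop) (by fun_prop)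
        · exact hFm.mul (by fun_prop)
    _ ≤ ENNReal.ofReal (2 ^ n) * 5 * (2 * (∫⁻ x : Fin n → ℝ, edge F j x) +
          2 * ∫⁻ x : Fin n → ℝ, edge F (j.succAbove k) x) := by
        gcongr
        · exact part_le hFm hF hij
        · exact part_le hFm hF hij.symm
    _ = _ := by ring

end P137
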