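import Vale.Agent.P137.Fub

/-! P137: pointwise bound of averages on a coordinate hyperplane. -/

open MeasureTheory ENNReal Set

namespace P137

lemma measure_coord_eq_zero {n : ℕ} (j : Fin (n + 1)) :
    volume {y : E (n + 1) | y j = 0} = 0 := by
  have hm : MeasurableSet {y : E (n + 1) | y j = 0} :=
    measurableSet_eq_fun (by fun_prop) measurable_const
  rw [← (measurePreserving_insEquiv j).measure_preimage hm.nullMeasurableSet]
  have : insEquiv j ⁻¹' {y : E (n + 1) | y j = 0} = ({0} : Set ℝ) ×ˢ univ := by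
    ext ⟨t, z⟩
    rw [mem_preimage, insEquiv_apply]
    show ins j t z j = 0 ↔ _
    simp
  rw [this, Measure.volume_eq_prod, Measure.prod_prod]
  simp

lemma ae_coord_ne_zero {n : ℕ} (j : Fin (n + 1)) : ∀ᵐ y : E (n + 1), y j ≠ 0 := by
  rw [ae_iff]
  simpa using measure_coord_eq_zero j

lemma abs_coord_sub_lt {n : ℕ} {x y : E n} {r : ℝ} (h : y ∈ Metric.ball x r) (i : Fin n) :
    |y i - x i| < r := by
  have h1 : ‖y - x‖ < r := by simpa [dist_eq_norm] using h
  have h2 := EuclideanSpace.norm_eq (y - x)
  have h3 : |(y - x) i| ≤ ‖y - x‖ := by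
    have := PiLp.norm_apply_le (y - x) i
    simpa using this
  exact lt_of_le_of_lt (by simpa using h3) h1

lemma le_edge {n : ℕ} {F : E (n + 1) → ℝ≥0∞} (hF : BD F) (j : Fin (n + 1)) (x : Fin n → ℝ)
    (y : E (n + 1)) (hy : y j ≠ 0) (h : ∀ i, |x i| ≤ |y (j.succAbove i)|) : F y ≤ edge F j x := by
  obtain ⟨k, hk⟩ := exists_nat_one_div_lt (abs_pos.mpr hy)
  refine le_trans (hF (ins j (1 / ((k : ℝ) + 1)) x) y ?_) (le_iSup (fun k : ℕ => F (ins j (1 / ((k : ℝ) + 1)) x)) k)
  intro i
  rcases Fin.eq_self_or_eq_succAbove j i with rfl | ⟨l, rfl⟩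
  · rw [ins_same, abs_of_pos (by positivity)]
    exact hk.le
  · rw [ins_succAbove]
    exact h l

theorem ptw : StmtPtw := by
  intro n
  set κ : ℝ≥0∞ := volume (Metric.ball (0 : E (n + 1)) 1) with hκ
  have hκ0 : κ ≠ 0 := (Metric.measure_ball_pos _ _ one_pos).ne'
  have hκt : κ ≠ ∞ := measure_ball_lt_top.ne
  refine ⟨ENNReal.ofReal (2 ^ (n + 2)) / κ, ENNReal.div_ne_top ENNReal.ofReal_ne_top hκ0, ?_⟩
  intro F hFm hF j x hx r hr
  set p : E (n + 1) := ins j 0 x with hp
  have hV : volume (Metric.ball p r) = ENNReal.ofReal (r ^ (n + 1)) * κ := by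
    rw [Measure.addHaar_ball _ _ hr.le, finrank_euclideanSpace_fin]
  have hV0 : volume (Metric.ball p r) ≠ 0 := (Metric.measure_ball_pos _ _ hr).ne'
  have hVt : volume (Metric.ball p r) ≠ ∞ := measure_ball_lt_top.ne
  by_cases hfar : ∀ i, 4 * r < |x i|
  · -- far case
    refine le_trans ?_ (le_add_right le_rfl)
    rw [ENNReal.div_le_iff hV0 hVt]
    calc ∫⁻ y in Metric.ball p r, F y
        ≤ ∫⁻ _ in Metric.ball p r, edge F j (fun i => x i / 2) := by
          apply lintegral_mono_ae
          rw [ae_restrict_iff' Metric.isOpen_ball.measurableSet]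
          filter_upwards [ae_coord_ne_zero j] with y hy hball
          refine le_edge hF j _ y hy fun i => ?_
          have h1 := abs_coord_sub_lt hball (j.succAbove i)
          rw [hp, ins_succAbove] at h1
          have h2 := hfar i
          have h3 : |x i| ≤ |y (j.succAbove i)| + |y (j.succAbove i) - x i| := by
            have := abs_sub_abs_le_abs_sub (x i) (y (j.succAbove i))
            rw [abs_sub_comm] at this
            linarith
          rw [abs_div, abs_two]
          linarith
      _ = edge F j (fun i => x i / 2) * volume (Metric.ball p r) := by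
          rw [setLIntegral_const]
  · -- near case
    push Not at hfar
    obtain ⟨i, hi⟩ := hfar
    refine le_trans ?_ (le_add_left le_rfl)
    have hmem : j.succAbove i ∈ Finset.univ.erase j := by
      simp [Fin.succAbove_ne]
    refine le_trans ?_ (mul_le_mul_right (Finset.single_le_sum (f := fun i => H F i p)
      (fun _ _ => zero_le) hmem) _)
    set A := ∫⁻ y in Metric.ball p r, F y with hA
    have hH : ENNReal.ofReal r * ((ENNReal.ofReal ((2 * r) ^ (n + 2)))⁻¹ * A) ≤
        H F (j.succAbove i) p := by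
      unfold H
      calc ENNReal.ofReal r * ((ENNReal.ofReal ((2 * r) ^ (n + 2)))⁻¹ * A)
          = ∫⁻ _ in Ioc r (2 * r), (ENNReal.ofReal ((2 * r) ^ (n + 2)))⁻¹ * A := by
            rw [setLIntegral_const, Real.volume_Ioc, mul_comm]
            congr 2
            ring
        _ ≤ ∫⁻ s in Ioc r (2 * r), (if |p (j.succAbove i)| ≤ 4 * s then 1 else 0) *
            (ENNReal.ofReal (s ^ (n + 2)))⁻¹ *
              ∫⁻ y in {y : E (n + 1) | ∀ l, |y l - p l| ≤ s}, F y := by
            apply setLIntegral_mono' measurableSet_Ioc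
            intro s hs
            have h4 : |p (j.succAbove i)| ≤ 4 * s := by
              rw [hp, ins_succAbove]
              linarith [hs.1]
            rw [if_pos h4, one_mul]
            have hs0 : 0 < s := hr.trans hs.1
            refine mul_le_mul' (ENNReal.inv_le_inv.mpr (ENNReal.ofReal_le_ofReal
              (pow_le_pow_left₀ hs0.le hs.2 _))) (lintegral_mono_set ?_)
            intro y hy l
            have := abs_coord_sub_lt hy l
            linarith [hs.1]
        _ ≤ _ := by
            apply lintegral_mono_set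
            intro s hs
            exact hr.trans hs.1
    refine le_trans (le_of_eq ?_) (mul_le_mul_right hH _)
    rw [hV]
    have h1 : (ENNReal.ofReal ((2 * r) ^ (n + 2)))⁻¹ = ENNReal.ofReal (((2 * r) ^ (n + 2))⁻¹) :=
      (ENNReal.ofReal_inv_of_pos (by positivity)).symm
    have h2 : A / (ENNReal.ofReal (r ^ (n + 1)) * κ) = ENNReal.ofReal ((r ^ (n + 1))⁻¹) * (A / κ) := by
      rw [ENNReal.div_eq_inv_mul, ENNReal.mul_inv (Or.inr hκt) (Or.inr hκ0),
        ← ENNReal.ofReal_inv_of_pos (by positivity), mul_assoc, ← ENNReal.div_eq_inv_mul]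
    rw [h1, h2]
    calc ENNReal.ofReal ((r ^ (n + 1))⁻¹) * (A / κ)
        = ENNReal.ofReal (2 ^ (n + 2) * (r * ((2 * r) ^ (n + 2))⁻¹)) * (A / κ) := by
          congr 2
          rw [mul_pow]
          field_simp
          ring
      _ = _ := by
          rw [ENNReal.ofReal_mul (by positivity), ENNReal.ofReal_mul hr.le]
          simp only [ENNReal.div_eq_inv_mul]
          ring

end P137
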